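/-
Locally finitely polyhedral spaces: definitions and elementary facts about patches.

`IsPatch θ y`: near `y` the norm is the linear functional `θ`.
`LocFinPoly X`: near every unit vector the norm is the maximum of finitely many linear functionals.
-/
import Vale.Agent.Lib.P084.LpSum.Ball
import Vale.Agent.Lib.P084.Inf.Cofacial

namespace Vale.Agent.Lib.P084.LFP

open Vale.Agent.Lib.P084.UC Vale.Agent.Lib.P084.Inf

variable {X : Type*} [NormedAddCommGroup X] [NormedSpace ℝ X]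

/-- Near `y` the norm coincides with the linear functional `θ`. -/
def IsPatch (θ : X →L[ℝ] ℝ) (y : X) : Prop :=
  ∃ r : ℝ, 0 < r ∧ ∀ w : X, ‖w - y‖ < r → ‖w‖ = θ w

/-- Every unit vector has a neighbourhood on which the norm is the maximum of finitely many continuous
linear functionals. -/
def LocFinPoly (X : Type*) [NormedAddCommGroup X] [NormedSpace ℝ X] : Prop :=
  ∀ x : X, ‖x‖ = 1 → ∃ (Θ : Finset (X →L[ℝ] ℝ)) (ρ : ℝ), 0 < ρ ∧
    ∀ w : X, ‖w - x‖ < ρ → (∀ θ ∈ Θ, θ w ≤ ‖w‖) ∧ ∃ θ ∈ Θ, θ w = ‖w‖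

theorem IsPatch.apply_eq {θ : X →L[ℝ] ℝ} {y : X} (h : IsPatch θ y) : θ y = ‖y‖ := by
  obtain ⟨r, hr, hw⟩ := h
  exact (hw y (by simpa using hr)).symm

/-- A functional with a patch is dominated by the norm. -/
theorem IsPatch.le_norm {θ : X →L[ℝ] ℝ} {y : X} (h : IsPatch θ y) (v : X) : θ v ≤ ‖v‖ := by
  obtain ⟨r, hr, hw⟩ := h
  have hy : θ y = ‖y‖ := (hw y (by simpa using hr)).symm
  by_cases hv : v = 0
  · simp [hv]
  have hvpos : 0 < ‖v‖ := norm_pos_iff.mpr hv
  set t : ℝ := r / (2 * ‖v‖) with ht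
  have htpos : 0 < t := by positivity
  have h1 : ‖(y + t • v) - y‖ < r := by
    rw [add_sub_cancel_left, norm_smul, Real.norm_of_nonneg htpos.le, ht]
    have : r / (2 * ‖v‖) * ‖v‖ = r / 2 := by field_simp
    rw [this]
    linarith
  have h2 := hw _ h1
  rw [map_add, map_smul, smul_eq_mul, hy] at h2
  have h3 : ‖y + t • v‖ ≤ ‖y‖ + t * ‖v‖ := by
    calc ‖y + t • v‖ ≤ ‖y‖ + ‖t • v‖ := norm_add_le _ _
      _ = ‖y‖ + t * ‖v‖ := by rw [norm_smul, Real.norm_of_nonneg htpos.le]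
  have h4 : t * θ v ≤ t * ‖v‖ := by linarith
  exact le_of_mul_le_mul_left h4 htpos

/-- Uniqueness of the functional of a patch: any functional dominated by the norm and norming `y` equals
`θ`. -/
theorem IsPatch.unique {θ χ : X →L[ℝ] ℝ} {y : X} (h : IsPatch θ y) (hχ : ∀ v, χ v ≤ ‖v‖)
    (hy : χ y = ‖y‖) : χ = θ := by
  obtain ⟨r, hr, hw⟩ := h
  have hθy : θ y = ‖y‖ := (hw y (by simpa using hr)).symm
  have key : ∀ v : X, χ v ≤ θ v := by
    intro v
    by_cases hv : v = 0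
    · simp [hv]
    have hvpos : 0 < ‖v‖ := norm_pos_iff.mpr hv
    set t : ℝ := r / (2 * ‖v‖) with ht
    have htpos : 0 < t := by positivity
    have h1 : ‖(y + t • v) - y‖ < r := by
      rw [add_sub_cancel_left, norm_smul, Real.norm_of_nonneg htpos.le, ht]
      have : r / (2 * ‖v‖) * ‖v‖ = r / 2 := by field_simp
      rw [this]
      linarith
    have h2 := hw _ h1
    have h3 := hχ (y + t • v)
    rw [h2, map_add, map_add, map_smul, map_smul, smul_eq_mul, smul_eq_mul, hy, hθy] at h3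
    have h4 : t * χ v ≤ t * θ v := by linarith
    exact le_of_mul_le_mul_left h4 htpos
  ext v
  have h1 := key v
  have h2 := key (-v)
  rw [map_neg, map_neg] at h2
  linarith

/-- Adding a vector on which `θ` is norming keeps the patch (with the same radius). -/
theorem IsPatch.add {θ : X →L[ℝ] ℝ} {z x : X} (h : IsPatch θ z) (hx : θ x = ‖x‖) :
    IsPatch θ (z + x) := by
  have hle := h.le_norm
  obtain ⟨r, hr, hw⟩ := h
  refine ⟨r, hr, fun w hwr => ?_⟩
  have h1 : ‖(w - x) - z‖ < r := by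
    have : (w - x) - z = w - (z + x) := by abel
    rwa [this]
  have h2 := hw _ h1
  rw [map_sub, hx] at h2
  apply le_antisymm
  · have h3 : ‖w‖ ≤ ‖w - x‖ + ‖x‖ := by
      have := norm_add_le (w - x) x
      rwa [sub_add_cancel] at this
    linarith
  · exact hle w

/-- Patches are stable under positive scaling. -/
theorem IsPatch.smul {θ : X →L[ℝ] ℝ} {y : X} (h : IsPatch θ y) {c : ℝ} (hc : 0 < c) :
    IsPatch θ (c • y) := by
  obtain ⟨r, hr, hw⟩ := h
  refine ⟨c * r, by positivity, fun w hwr => ?_⟩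
  have h1 : ‖c⁻¹ • w - y‖ < r := by
    have e : c⁻¹ • w - y = c⁻¹ • (w - c • y) := by
      rw [smul_sub, smul_smul, inv_mul_cancel₀ hc.ne', one_smul]
    rw [e, norm_smul, norm_inv, Real.norm_of_nonneg hc.le]
    calc c⁻¹ * ‖w - c • y‖ < c⁻¹ * (c * r) := by
          exact mul_lt_mul_of_pos_left hwr (inv_pos.mpr hc)
      _ = r := by field_simp
  have h2 := hw _ h1
  rw [norm_smul, norm_inv, Real.norm_of_nonneg hc.le, map_smul, smul_eq_mul] at h2
  have : ‖w‖ = c * (c⁻¹ * ‖w‖) := by field_simp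
  rw [this, h2]
  field_simp

/-- From a patch point `z` of `θ` and a vector `k` in the kernel of `θ` of small norm, `z + k` is a
unit vector with `θ (z + k) = 1`; the same radius works for all `k`. -/
theorem IsPatch.exists_ker {θ : X →L[ℝ] ℝ} {z : X} (h : IsPatch θ z) (hz : ‖z‖ = 1) :
    ∃ r : ℝ, 0 < r ∧ ∀ k : X, θ k = 0 → ‖k‖ < r → ‖z + k‖ = 1 ∧ θ (z + k) = 1 := by
  have hθz := h.apply_eq
  obtain ⟨r, hr, hw⟩ := h
  refine ⟨r, hr, fun k hk hkr => ?_⟩
  have h1 := hw (z + k) (by rwa [add_sub_cancel_left])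
  rw [map_add, hk, add_zero, hθz, hz] at h1
  rw [map_add, hk, add_zero, hθz, hz]
  exact ⟨h1, rfl⟩

/-- A convex combination of a patch point of `θ` and a vector on which `θ` is norming is a patch point
(positive weight on the patch point). -/
theorem IsPatch.combo {θ : X →L[ℝ] ℝ} {z x : X} (h : IsPatch θ z) (hx : θ x = ‖x‖) {s t : ℝ}
    (hs : 0 < s) (ht : 0 ≤ t) : IsPatch θ (s • z + t • x) := by
  refine (h.smul hs).add ?_
  rw [map_smul, norm_smul, Real.norm_of_nonneg ht, hx, smul_eq_mul]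

/-- On `θ = 1`, for a functional dominated by the norm, a convex combination of unit vectors stays. -/
theorem unit_of_combo {θ : X →L[ℝ] ℝ} (hle : ∀ v, θ v ≤ ‖v‖) {x y : X} (hx : ‖x‖ = 1) (hy : ‖y‖ = 1)
    (hθx : θ x = 1) (hθy : θ y = 1) {s : ℝ} (hs0 : 0 ≤ s) (hs1 : s ≤ 1) :
    ‖(1 - s) • x + s • y‖ = 1 ∧ θ ((1 - s) • x + s • y) = 1 := by
  have h1 : θ ((1 - s) • x + s • y) = 1 := by
    rw [map_add, map_smul, map_smul, hθx, hθy]
    simp
  refine ⟨le_antisymm ?_ (by have := hle ((1 - s) • x + s • y); rwa [h1] at this), h1⟩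
  calc ‖(1 - s) • x + s • y‖ ≤ ‖(1 - s) • x‖ + ‖s • y‖ := norm_add_le _ _
    _ = 1 := by
      rw [norm_smul, norm_smul, hx, hy, Real.norm_of_nonneg hs0,
        Real.norm_of_nonneg (by linarith)]
      ring

end Vale.Agent.Lib.P084.LFP
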