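/-
The relative boundary of a facet is connected.
-/
import Vale.Agent.Lib.P084.LFP.Defs

namespace Vale.Agent.Lib.P084.LFP

variable {X : Type*} [NormedAddCommGroup X] [NormedSpace ℝ X]

/-- The relative boundary of the facet of `θ`: unit vectors with `θ = 1` at which `θ` is not a patch. -/
def Bd (θ : X →L[ℝ] ℝ) : Set X := {b | ‖b‖ = 1 ∧ θ b = 1 ∧ ¬ IsPatch θ b}

/-- A point of the boundary of a facet is not a patch point for any functional. -/
theorem not_patch_of_mem_Bd {θ : X →L[ℝ] ℝ} {z b : X} (hθ : IsPatch θ z) (hb : b ∈ Bd θ) :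
    ¬ ∃ χ : X →L[ℝ] ℝ, IsPatch χ b := by
  rintro ⟨χ, hχ⟩
  obtain ⟨hb1, hb2, hb3⟩ := hb
  have : θ = χ := hχ.unique hθ.le_norm (by rw [hb1, hb2])
  rw [this] at hb3
  exact hb3 hχ

/-- The kernel of a functional with `θ z = 1` has rank at least two when `X` has rank at least three. -/
theorem one_lt_rank_ker (hrank : (3 : Cardinal) ≤ Module.rank ℝ X) {θ : X →L[ℝ] ℝ} {z : X}
    (hθz : θ z = 1) : 1 < Module.rank ℝ (LinearMap.ker (θ : X →ₗ[ℝ] ℝ)) := by
  have hquot : Module.rank ℝ (X ⧸ LinearMap.ker (θ : X →ₗ[ℝ] ℝ)) ≤ 1 := by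
    rw [rank_le_one_iff]
    refine ⟨Submodule.Quotient.mk z, fun v => ?_⟩
    obtain ⟨x, rfl⟩ := Submodule.Quotient.mk_surjective _ v
    refine ⟨θ x, ?_⟩
    rw [← Submodule.Quotient.mk_smul, Submodule.Quotient.eq]
    simp [LinearMap.mem_ker, hθz]
  have hsum := rank_quotient_add_rank_of_divisionRing (LinearMap.ker (θ : X →ₗ[ℝ] ℝ))
  by_contra hcon
  have hle : Module.rank ℝ (LinearMap.ker (θ : X →ₗ[ℝ] ℝ)) ≤ 1 := not_lt.mp hcon
  have h2 : Module.rank ℝ X ≤ 1 + 1 := by
    rw [← hsum]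
    exact add_le_add hquot hle
  have h3 : (3 : Cardinal) ≤ 1 + 1 := hrank.trans h2
  rw [one_add_one_eq_two] at h3
  have h5 : (3 : ℕ) ≤ 2 := by exact_mod_cast h3
  omega

/-- The boundary of a facet is preconnected and nonempty when `dim X ≥ 3`.

Paper proof. K := ker θ (subtype), rank K ≥ 2 (rank X = rank K + 1: `LinearMap.rank_range_add_rank_ker`, or: if rank K ≤ 1
then rank X ≤ 2). `A := {k : K | IsPatch θ (z + k)}`: convex (`IsPatch.combo`, note `z + k` has `θ = 1`, and norm one because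
`IsPatch` forces `‖z + k‖ = θ (z + k)`), open (radius shift), contains 0, bounded (`‖k‖ ≤ 2`).
`closure A = {k | ‖z + k‖ = 1}` (`⊆`: the set `{k | ‖z+k‖=1}` is closed and contains `A`; `⊇`: for `‖z + k‖ = 1`,
`t • k` is in `A` for `t < 1` by `IsPatch.combo` and tends to `k`). `interior A = A`. So
`frontier A = {k | ‖z + k‖ = 1 ∧ ¬ IsPatch θ (z + k)}`, which is the preimage of `Bd θ` under `k ↦ z + k`.
`exists_homeomorph_image_interior_closure_frontier_eq_unitBall` (Mathlib.Analysis.Convex.GaugeRescale) and `isConnected_sphere`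
(rank K > 1) make `frontier A` connected and nonempty. `Bd θ` is its image under the continuous map `k ↦ z + k`. -/
theorem bd_connected (hrank : (3 : Cardinal) ≤ Module.rank ℝ X) {θ : X →L[ℝ] ℝ} {z : X} (hz : ‖z‖ = 1)
    (hθ : IsPatch θ z) : IsConnected (Bd θ) := by
  classical
  have hθz : θ z = 1 := by rw [hθ.apply_eq, hz]
  have hker : ∀ k : LinearMap.ker (θ : X →ₗ[ℝ] ℝ), θ (k : X) = 0 := fun k => k.2
  let A : Set (LinearMap.ker (θ : X →ₗ[ℝ] ℝ)) := {k | IsPatch θ (z + (k : X))}
  have hunit : ∀ k : LinearMap.ker (θ : X →ₗ[ℝ] ℝ), k ∈ A → ‖z + (k : X)‖ = 1 := by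
    intro k hk
    have h1 : θ (z + (k : X)) = ‖z + (k : X)‖ := IsPatch.apply_eq hk
    rw [← h1, map_add, hθz, hker, add_zero]
  have hconv : Convex ℝ A := by
    rw [convex_iff_forall_pos]
    intro a ha b hb s t hs ht hst
    have e : z + ((s • a + t • b : LinearMap.ker (θ : X →ₗ[ℝ] ℝ)) : X) = s • (z + (a : X)) + t • (z + (b : X)) := by
      simp only [Submodule.coe_add, Submodule.coe_smul, smul_add]
      have h1 : z = s • z + t • z := by rw [← add_smul, hst, one_smul]
      nth_rw 1 [h1]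
      abel
    change IsPatch θ _
    rw [e]
    exact IsPatch.combo ha (IsPatch.apply_eq hb) hs ht.le
  have hopen : IsOpen A := by
    rw [Metric.isOpen_iff]
    rintro k ⟨r, hr, hw⟩
    refine ⟨r / 2, by positivity, fun k' hk' => ?_⟩
    refine ⟨r / 2, by positivity, fun w hw' => hw w ?_⟩
    have h1 : ‖(k' : X) - (k : X)‖ < r / 2 := by
      have h2 : dist k' k < r / 2 := hk'
      rw [dist_eq_norm] at h2
      simpa using h2
    calc ‖w - (z + (k : X))‖ = ‖(w - (z + (k' : X))) + ((k' : X) - (k : X))‖ := by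
          congr 1
          abel
      _ ≤ ‖w - (z + (k' : X))‖ + ‖(k' : X) - (k : X)‖ := norm_add_le _ _
      _ < r := by linarith
  have h0 : (0 : LinearMap.ker (θ : X →ₗ[ℝ] ℝ)) ∈ A := by
    change IsPatch θ (z + ((0 : LinearMap.ker (θ : X →ₗ[ℝ] ℝ)) : X))
    simpa using hθ
  have hbdd : Bornology.IsBounded A := by
    refine (Metric.isBounded_iff_subset_closedBall 0).2 ⟨2, fun k hk => ?_⟩
    rw [mem_closedBall_zero_iff]
    have h1 := hunit k hk
    have h2 : ‖k‖ = ‖(z + (k : X)) - z‖ := by simp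
    rw [h2]
    calc ‖(z + (k : X)) - z‖ ≤ ‖z + (k : X)‖ + ‖z‖ := norm_sub_le _ _
      _ = 2 := by rw [h1, hz]; norm_num
  have hint : interior A = A := hopen.interior_eq
  have hclosure : closure A = {k : LinearMap.ker (θ : X →ₗ[ℝ] ℝ) | ‖z + (k : X)‖ = 1} := by
    apply Set.Subset.antisymm
    · refine closure_minimal hunit ?_
      exact isClosed_eq (by fun_prop) continuous_const
    · intro k hk
      have hk' : ‖z + (k : X)‖ = 1 := hk
      have hin : ∀ t : ℝ, 0 < t → t < 1 → t • k ∈ A := by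
        intro t ht0 ht1
        have e : z + ((t • k : LinearMap.ker (θ : X →ₗ[ℝ] ℝ)) : X) = (1 - t) • z + t • (z + (k : X)) := by
          simp only [Submodule.coe_smul, smul_add, sub_smul, one_smul]
          abel
        change IsPatch θ _
        rw [e]
        refine IsPatch.combo hθ ?_ (by linarith) ht0.le
        rw [map_add, hθz, hker, add_zero, hk']
      have hlim : Filter.Tendsto (fun t : ℝ => t • k) (nhdsWithin 1 (Set.Iio 1)) (nhds k) := by
        have h1 : Filter.Tendsto (fun t : ℝ => t • k) (nhds 1) (nhds ((1 : ℝ) • k)) :=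
          (continuous_id.smul continuous_const).tendsto 1
        rw [one_smul] at h1
        exact h1.mono_left nhdsWithin_le_nhds
      refine mem_closure_of_tendsto hlim ?_
      filter_upwards [Ioo_mem_nhdsLT (zero_lt_one' ℝ)] with t ht
      exact hin t ht.1 ht.2
  have hfrontier : frontier A = {k : LinearMap.ker (θ : X →ₗ[ℝ] ℝ) | ‖z + (k : X)‖ = 1 ∧ ¬ IsPatch θ (z + (k : X))} := by
    rw [frontier, hint, hclosure]
    rfl
  have hne : (interior A).Nonempty := by
    rw [hint]
    exact ⟨0, h0⟩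
  obtain ⟨h, _, _, hfr⟩ := exists_homeomorph_image_interior_closure_frontier_eq_unitBall hconv hne hbdd
  have hr : 1 < Module.rank ℝ (LinearMap.ker (θ : X →ₗ[ℝ] ℝ)) := one_lt_rank_ker hrank hθz
  have hsphere : IsConnected (Metric.sphere (0 : LinearMap.ker (θ : X →ₗ[ℝ] ℝ)) 1) :=
    isConnected_sphere hr 0 zero_le_one
  have hfc : IsConnected (frontier A) := by
    have h1 : frontier A = h.symm '' Metric.sphere (0 : LinearMap.ker (θ : X →ₗ[ℝ] ℝ)) 1 := by
      rw [← hfr, Set.image_image]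
      simp
    rw [h1]
    exact hsphere.image _ h.symm.continuous.continuousOn
  have himg : Bd θ = (fun k : LinearMap.ker (θ : X →ₗ[ℝ] ℝ) => z + (k : X)) '' frontier A := by
    ext b
    constructor
    · rintro ⟨hb1, hb2, hb3⟩
      have hk : b - z ∈ LinearMap.ker (θ : X →ₗ[ℝ] ℝ) := by
        rw [LinearMap.mem_ker, map_sub]
        change θ b - θ z = 0
        rw [hb2, hθz, sub_self]
      refine ⟨⟨b - z, hk⟩, ?_, by simp⟩
      rw [hfrontier]
      have e : z + (b - z) = b := by abel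
      refine ⟨?_, ?_⟩
      · change ‖z + (b - z)‖ = 1
        rw [e, hb1]
      · change ¬ IsPatch θ (z + (b - z))
        rw [e]
        exact hb3
    · rintro ⟨k, hk, rfl⟩
      rw [hfrontier] at hk
      obtain ⟨hk1, hk2⟩ := hk
      refine ⟨hk1, ?_, hk2⟩
      change θ (z + (k : X)) = 1
      rw [map_add, hθz, hker, add_zero]
  rw [himg]
  exact hfc.image _ (by fun_prop)

end Vale.Agent.Lib.P084.LFP
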