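/-
Examples of locally finitely polyhedral spaces: `c_0(Γ)` and its linear subspaces; the class is hereditary.
-/
import Vale.Agent.Lib.P084.LFP.Defs

namespace Vale.Agent.Lib.P084.LFP

open scoped ZeroAtInfty Topology

/-- Every linear subspace of a locally finitely polyhedral space is locally finitely polyhedral. -/
theorem LocFinPoly.submodule {X : Type*} [NormedAddCommGroup X] [NormedSpace ℝ X] (hX : LocFinPoly X)
    (V : Submodule ℝ X) : LocFinPoly V := by
  classical
  intro x hx
  obtain ⟨Θ, ρ, hρ, h⟩ := hX (x : X) (by simpa using hx)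
  refine ⟨Θ.image (fun θ => θ.comp V.subtypeL), ρ, hρ, fun w hw => ?_⟩
  have hw' : ‖(w : X) - x‖ < ρ := by simpa using hw
  obtain ⟨h1, θ, hθ, he⟩ := h (w : X) hw'
  refine ⟨fun θ' hθ' => ?_, θ.comp V.subtypeL, Finset.mem_image_of_mem _ hθ, by simpa using he⟩
  obtain ⟨θ₀, hθ₀, rfl⟩ := Finset.mem_image.1 hθ'
  simpa using h1 θ₀ hθ₀

variable {Γ : Type*} [TopologicalSpace Γ]

theorem abs_apply_le (g : C₀(Γ, ℝ)) (i : Γ) : |g i| ≤ ‖g‖ := by
  have h := BoundedContinuousFunction.norm_coe_le_norm g.toBCF i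
  rw [ZeroAtInftyContinuousMap.norm_toBCF_eq_norm] at h
  simpa using h

theorem norm_le_of_abs_le (g : C₀(Γ, ℝ)) {M : ℝ} (hM : 0 ≤ M) (h : ∀ i, |g i| ≤ M) : ‖g‖ ≤ M := by
  rw [← ZeroAtInftyContinuousMap.norm_toBCF_eq_norm]
  exact (BoundedContinuousFunction.norm_le hM).2 (fun i => by simpa using h i)

/-- Evaluation at a point as a continuous linear functional. -/
noncomputable def ev (i : Γ) : C₀(Γ, ℝ) →L[ℝ] ℝ :=
  LinearMap.mkContinuous
    { toFun := fun g => g i
      map_add' := fun _ _ => rfl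
      map_smul' := fun _ _ => rfl } 1
    (fun g => by simpa using abs_apply_le g i)

@[simp] theorem ev_apply (i : Γ) (g : C₀(Γ, ℝ)) : ev i g = g i := rfl

/-- `c_0(Γ)` is locally finitely polyhedral. -/
theorem locFinPoly_c0 [DiscreteTopology Γ] : LocFinPoly C₀(Γ, ℝ) := by
  classical
  intro x hx
  -- the large coordinates
  have hfin : ∃ A : Finset Γ, ∀ i, i ∉ A → |x i| < 1 / 2 := by
    have h0 := x.zero_at_infty'
    have h1 := (Metric.tendsto_nhds.1 h0) (1 / 2) (by norm_num)
    obtain ⟨t, ht, hts⟩ := Filter.mem_cocompact.1 h1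
    have htf : t.Finite := isCompact_iff_finite.1 ht
    refine ⟨htf.toFinset, fun i hi => ?_⟩
    have hi' : i ∈ tᶜ := by simpa using hi
    have := hts hi'
    simpa [Real.dist_eq] using this
  obtain ⟨A, hA⟩ := hfin
  -- a large coordinate
  obtain ⟨i₀, hi₀⟩ : ∃ i, 7 / 8 < |x i| := by
    by_contra hcon
    push_neg at hcon
    have := norm_le_of_abs_le x (by norm_num : (0 : ℝ) ≤ 7 / 8) hcon
    rw [hx] at this
    norm_num at this
  have hi₀A : i₀ ∈ A := by
    by_contra hn
    have := hA i₀ hn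
    linarith
  refine ⟨A.image ev ∪ A.image (fun i => - ev i), 1 / 8, by norm_num, fun w hw => ?_⟩
  have hclose : ∀ i, |w i - x i| < 1 / 8 := fun i =>
    lt_of_le_of_lt (abs_apply_le (w - x) i) hw
  obtain ⟨j, hj, hmax⟩ := A.exists_max_image (fun i => |w i|) ⟨i₀, hi₀A⟩
  have hi₀w : 3 / 4 < |w i₀| := by
    have h1 := hclose i₀
    have h2 : |x i₀| ≤ |w i₀| + |w i₀ - x i₀| := by
      have := abs_sub_abs_le_abs_sub (x i₀) (w i₀)
      rw [abs_sub_comm (x i₀) (w i₀)] at this
      linarith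
    linarith
  have hjlarge : 3 / 4 < |w j| := lt_of_lt_of_le hi₀w (hmax i₀ hi₀A)
  have hall : ∀ i, |w i| ≤ |w j| := by
    intro i
    by_cases hi : i ∈ A
    · exact hmax i hi
    · have h1 := hA i hi
      have h2 := hclose i
      have h3 : |w i| ≤ |x i| + |w i - x i| := by
        have := abs_sub_abs_le_abs_sub (w i) (x i)
        linarith
      linarith
  have hnorm : ‖w‖ = |w j| :=
    le_antisymm (norm_le_of_abs_le w (abs_nonneg _) hall) (abs_apply_le w j)
  refine ⟨fun θ hθ => ?_, ?_⟩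
  · rcases Finset.mem_union.1 hθ with h | h
    · obtain ⟨i, -, rfl⟩ := Finset.mem_image.1 h
      exact le_trans (le_abs_self _) (abs_apply_le w i)
    · obtain ⟨i, -, rfl⟩ := Finset.mem_image.1 h
      have : (- ev i) w = - w i := rfl
      rw [this]
      exact le_trans (neg_le_abs _) (abs_apply_le w i)
  · rcases le_total 0 (w j) with h | h
    · refine ⟨ev j, Finset.mem_union_left _ (Finset.mem_image_of_mem _ hj), ?_⟩
      rw [hnorm, ev_apply, abs_of_nonneg h]
    · refine ⟨- ev j, Finset.mem_union_right _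
        (Finset.mem_image.2 ⟨j, hj, rfl⟩), ?_⟩
      have : (- ev j) w = - w j := rfl
      rw [hnorm, this, abs_of_nonpos h]

/-- Every linear subspace of `c_0(Γ)` is locally finitely polyhedral. -/
theorem locFinPoly_c0_submodule [DiscreteTopology Γ] (V : Submodule ℝ C₀(Γ, ℝ)) : LocFinPoly V :=
  locFinPoly_c0.submodule V

end Vale.Agent.Lib.P084.LFP
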