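/-
Charts of locally finitely polyhedral spaces.
-/
import Vale.Agent.Lib.P084.LFP.Defs

namespace Vale.Agent.Lib.P084.LFP

variable {X : Type*} [NormedAddCommGroup X] [NormedSpace ℝ X]

/-- A vector on which finitely many distinct functionals take pairwise distinct values. -/
theorem exists_generic_vec (Θ : Finset (X →L[ℝ] ℝ)) :
    ∃ v : X, ∀ θ ∈ Θ, ∀ θ' ∈ Θ, θ ≠ θ' → θ v ≠ θ' v := by
  classical
  let s : Finset (Subspace ℝ X) := ((Θ ×ˢ Θ).filter (fun p => p.1 ≠ p.2)).image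
    (fun p => LinearMap.ker ((p.1 - p.2 : X →L[ℝ] ℝ) : X →ₗ[ℝ] ℝ))
  have hs : (⊤ : Subspace ℝ X) ∉ s := by
    intro h
    obtain ⟨p, hp, hpe⟩ := Finset.mem_image.1 h
    apply (Finset.mem_filter.1 hp).2
    ext u
    have hu : u ∈ LinearMap.ker ((p.1 - p.2 : X →L[ℝ] ℝ) : X →ₗ[ℝ] ℝ) := by
      rw [hpe]; trivial
    have hu' : (p.1 - p.2 : X →L[ℝ] ℝ) u = 0 := by simpa using hu
    simpa [sub_eq_zero] using hu'
  have hne := Subspace.biUnion_ne_univ_of_top_notMem (k := ℝ) (E := X) hs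
  obtain ⟨v, hv⟩ := (Set.ne_univ_iff_exists_notMem _).1 hne
  refine ⟨v, fun θ hθ θ' hθ' hne' he => hv ?_⟩
  simp only [Set.mem_iUnion]
  refine ⟨LinearMap.ker ((θ - θ' : X →L[ℝ] ℝ) : X →ₗ[ℝ] ℝ),
    Finset.mem_image.2 ⟨(θ, θ'), Finset.mem_filter.2 ⟨Finset.mem_product.2 ⟨hθ, hθ'⟩, hne'⟩, rfl⟩, ?_⟩
  simp [he]

/-- Chart at a unit vector: finitely many functionals, each with value one at `x` and each having a patch
point on the sphere, whose maximum is the norm near `x`.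

Paper proof. Take `Θ₀, ρ₀` from `LocFinPoly`. `Θ₁ := {θ ∈ Θ₀ | θ x = 1}`; for `θ ∈ Θ₀ \ Θ₁`, `θ x < 1`, so by
finiteness and continuity there is `ρ₁ ≤ ρ₀`, `ρ₁ < 1/2`, with `θ w < ‖w‖` on `B(x, ρ₁)` for those `θ`.
Let `Θ := {θ ∈ Θ₁ | ∃ z, ‖z‖ = 1 ∧ IsPatch θ z}` (classical filter), `ρ := ρ₁ / 2`.
Given `w ∈ B(x, ρ)`: pick `v` on which the finitely many functionals `Θ₁` take pairwise distinct values (a
real vector space is not a finite union of the proper subspaces `ker (θ - θ')`,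
`Subspace.biUnion_ne_univ_of_top_notMem` in Mathlib/GroupTheory/CosetCover.lean). Among the
`θ ∈ Θ₁` with `θ w = ‖w‖` (nonempty) let `θ*` have the largest `θ v`. For small `t > 0`, `w_t = w + t v` is in
`B(x, ρ₁)` and `θ w_t < θ* w_t` for every `θ ∈ Θ₁`, `θ ≠ θ*`. By continuity and finiteness this persists in a
neighbourhood of `w_t` inside `B(x, ρ₁)`, where the active functional must be `θ*`: so `IsPatch θ* w_t`, and
`IsPatch θ* (‖w_t‖⁻¹ • w_t)` by `IsPatch.smul`. So `θ* ∈ Θ`, `θ* w = ‖w‖`. -/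
theorem exists_chart (hX : LocFinPoly X) {x : X} (hx : ‖x‖ = 1) :
    ∃ (Θ : Finset (X →L[ℝ] ℝ)) (ρ : ℝ), 0 < ρ ∧
      (∀ θ ∈ Θ, θ x = 1 ∧ ∃ z : X, ‖z‖ = 1 ∧ IsPatch θ z) ∧
      ∀ w : X, ‖w - x‖ < ρ → ∃ θ ∈ Θ, θ w = ‖w‖ := by
  classical
  obtain ⟨Θ₀, ρ₀, hρ₀, h⟩ := hX x hx
  obtain ⟨v, hv⟩ := exists_generic_vec Θ₀
  have hx0 : ‖x - x‖ < ρ₀ := by simpa using hρ₀
  have h1 : ∀ᶠ w in nhds x, ∀ θ ∈ Θ₀, θ x ≠ 1 → θ w < ‖w‖ := by
    rw [Filter.eventually_all_finset]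
    intro θ hθ
    by_cases hθ1 : θ x = 1
    · exact Filter.Eventually.of_forall (fun w hw => absurd hθ1 hw)
    · have hle : θ x ≤ ‖x‖ := (h x hx0).1 θ hθ
      have hlt : θ x < ‖x‖ := by
        rw [hx] at hle ⊢
        exact lt_of_le_of_ne hle hθ1
      filter_upwards [θ.continuous.continuousAt.eventually_lt continuous_norm.continuousAt hlt]
        with w hw _
      exact hw
  obtain ⟨ρ₁, hρ₁, hρ₁'⟩ := Metric.eventually_nhds_iff.1 h1
  refine ⟨Θ₀.filter (fun θ => θ x = 1 ∧ ∃ z : X, ‖z‖ = 1 ∧ IsPatch θ z), min ρ₀ (min ρ₁ 1),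
    lt_min hρ₀ (lt_min hρ₁ one_pos), ?_, ?_⟩
  · intro θ hθ
    exact (Finset.mem_filter.1 hθ).2
  intro w hw
  have hw0 : ‖w - x‖ < ρ₀ := lt_of_lt_of_le hw (min_le_left _ _)
  have hw1 : ‖w - x‖ < ρ₁ := lt_of_lt_of_le hw ((min_le_right _ _).trans (min_le_left _ _))
  have hw2 : ‖w - x‖ < 1 := lt_of_lt_of_le hw ((min_le_right _ _).trans (min_le_right _ _))
  obtain ⟨hdom, θa, hθa, hθaw⟩ := h w hw0
  obtain ⟨θs, hθs, hmax⟩ := Finset.exists_max_image (Θ₀.filter (fun θ => θ w = ‖w‖))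
    (fun θ => θ v) ⟨θa, Finset.mem_filter.2 ⟨hθa, hθaw⟩⟩
  obtain ⟨hθs0, hθsw⟩ := Finset.mem_filter.1 hθs
  have hθsx : θs x = 1 := by
    by_contra hne
    have := hρ₁' (y := w) (by rwa [dist_eq_norm]) θs hθs0 hne
    linarith
  -- small `t`
  have ht1 : ∀ᶠ t in nhdsWithin (0 : ℝ) (Set.Ioi 0),
      ∀ θ ∈ Θ₀, θ ≠ θs → θ (w + t • v) < θs (w + t • v) := by
    rw [Filter.eventually_all_finset]
    intro θ hθ
    by_cases hne : θ = θs
    · exact Filter.Eventually.of_forall (fun t ht => absurd hne ht)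
    by_cases hθw : θ w = ‖w‖
    · have hmx : θ v ≤ θs v := hmax θ (Finset.mem_filter.2 ⟨hθ, hθw⟩)
      have hvlt : θ v < θs v := lt_of_le_of_ne hmx (hv θ hθ θs hθs0 hne)
      filter_upwards [self_mem_nhdsWithin] with t ht _
      have ht' : (0 : ℝ) < t := ht
      simp only [map_add, map_smul, smul_eq_mul, hθw, hθsw]
      nlinarith
    · have hlt : θ w < θs w := by
        rw [hθsw]
        exact lt_of_le_of_ne (hdom θ hθ) hθw
      have hc1 : Continuous fun t : ℝ => θ (w + t • v) := by fun_prop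
      have hc2 : Continuous fun t : ℝ => θs (w + t • v) := by fun_prop
      have hlt0 : θ (w + (0 : ℝ) • v) < θs (w + (0 : ℝ) • v) := by simpa using hlt
      have hev := hc1.continuousAt.eventually_lt hc2.continuousAt hlt0
      filter_upwards [nhdsWithin_le_nhds hev] with t ht _
      exact ht
  have ht2 : ∀ᶠ t in nhdsWithin (0 : ℝ) (Set.Ioi 0), ‖(w + t • v) - x‖ < min ρ₀ 1 := by
    have hc : Continuous fun t : ℝ => ‖(w + t • v) - x‖ := by fun_prop
    have h0 : ‖(w + (0 : ℝ) • v) - x‖ < min ρ₀ 1 := by simpa using lt_min hw0 hw2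
    exact nhdsWithin_le_nhds (hc.continuousAt.eventually_lt continuousAt_const h0)
  obtain ⟨t, ⟨ht1', ht2'⟩, htpos⟩ := ((ht1.and ht2).and self_mem_nhdsWithin).exists
  set y : X := w + t • v with hy
  -- patch at `y`
  have hpatch : IsPatch θs y := by
    have hn1 : ∀ᶠ u in nhds y, ∀ θ ∈ Θ₀, θ ≠ θs → θ u < θs u := by
      rw [Filter.eventually_all_finset]
      intro θ hθ
      by_cases hne : θ = θs
      · exact Filter.Eventually.of_forall (fun u hu => absurd hne hu)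
      filter_upwards [θ.continuous.continuousAt.eventually_lt θs.continuous.continuousAt
        (ht1' θ hθ hne)] with u hu _
      exact hu
    have hn2 : ∀ᶠ u in nhds y, ‖u - x‖ < ρ₀ := by
      have hc : Continuous fun u : X => ‖u - x‖ := by fun_prop
      exact hc.continuousAt.eventually_lt continuousAt_const (lt_of_lt_of_le ht2' (min_le_left _ _))
    obtain ⟨r, hr, hr'⟩ := Metric.eventually_nhds_iff.1 (hn1.and hn2)
    refine ⟨r, hr, fun u hu => ?_⟩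
    obtain ⟨hu1, hu2⟩ := hr' (y := u) (by rwa [dist_eq_norm])
    obtain ⟨hdu, θu, hθu, hθuu⟩ := h u hu2
    by_cases hne : θu = θs
    · rw [← hne, hθuu]
    · have h3 := hu1 θu hθu hne
      have h4 := hdu θs hθs0
      linarith
  have hypos : 0 < ‖y‖ := by
    have h1' : ‖y - x‖ < 1 := lt_of_lt_of_le ht2' (min_le_right _ _)
    have h2' : ‖x‖ ≤ ‖y‖ + ‖y - x‖ := by
      have := norm_sub_le y (y - x)
      simpa using this
    rw [hx] at h2'
    linarith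
  refine ⟨θs, Finset.mem_filter.2 ⟨hθs0, hθsx, ‖y‖⁻¹ • y, ?_, hpatch.smul (inv_pos.2 hypos)⟩, hθsw⟩
  rw [norm_smul, norm_inv, norm_norm, inv_mul_cancel₀ hypos.ne']

end Vale.Agent.Lib.P084.LFP
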