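/-
The image of a patch point is a patch point; the star identity.
-/
import Vale.Agent.Lib.P084.LFP.Defs

namespace Vale.Agent.Lib.P084.LFP

open Vale.Agent.Lib.P084.UC Vale.Agent.Lib.P084.Inf

variable {X Y : Type*} [NormedAddCommGroup X] [NormedSpace ℝ X] [NormedAddCommGroup Y] [NormedSpace ℝ Y]

/-- Oddness and isometry: the norm of a sum of two images. -/
private theorem norm_image_add {f : X → Y} (hf : IsSphereIso f) {u v : X} (hu : ‖u‖ = 1) (hv : ‖v‖ = 1) :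
    ‖f u + f v‖ = ‖u + v‖ := by
  have h1 := hf.iso u (-v) hu (by rwa [norm_neg])
  rw [odd_of_isSphereIso hf hv, sub_neg_eq_add, sub_neg_eq_add] at h1
  exact h1

/-- Two unit vectors of a sum of norm two have a common norming functional. -/
private theorem exists_common {y₁ y₂ : Y} (h1 : ‖y₁‖ = 1) (h2 : ‖y₂‖ = 1) (h : ‖y₁ + y₂‖ = 2) :
    ∃ ξ : Y →L[ℝ] ℝ, (∀ v, ξ v ≤ ‖v‖) ∧ ξ y₁ = 1 ∧ ξ y₂ = 1 := by
  have hne : y₁ + y₂ ≠ 0 := by
    intro h0
    rw [h0, norm_zero] at h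
    norm_num at h
  obtain ⟨ξ, hξ1, hξ2⟩ := exists_dual_vector ℝ (y₁ + y₂) (norm_ne_zero_iff.mpr hne)
  have hle : ∀ v, ξ v ≤ ‖v‖ := by
    intro v
    have h3 := ξ.le_opNorm v
    rw [hξ1, one_mul] at h3
    exact (le_abs_self _).trans h3
  have hsum : ξ y₁ + ξ y₂ = 2 := by
    rw [← map_add, hξ2, h]
    simp
  have a1 := hle y₁
  have a2 := hle y₂
  rw [h1] at a1
  rw [h2] at a2
  exact ⟨ξ, hle, by linarith, by linarith⟩

/-- The image of a patch point is a patch point, and its functional is one on the image of the face.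

Paper proof. `hθ` gives `r`, with `‖u‖ = θ u` for `‖u - z‖ < r`. `y₀ := f z`, unit (`hf.norm_eq`). Take `χ` with
`‖χ‖ ≤ 1`, `χ y₀ = 1` (`exists_dual_vector`). Claim `IsPatch χ y₀`: let `w` with `‖w - y₀‖ < r' := min(r, 1)/4`;
`w' := 2 • y₀ - w` also. Both nonzero; `ŷ := ‖w‖⁻¹ • w`, `ŷ' := ‖w'‖⁻¹ • w'` are unit vectors within `r` of `y₀`
(standard, `‖ŷ - y₀‖ ≤ 2 ‖w - y₀‖`), so by `hf.surj` `ŷ = f u`, `ŷ' = f u'` with `u, u'` unit and `‖u - z‖ < r`, so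
`θ u = θ u' = 1` (`‖u‖ = θ u`). By oddness (`odd_of_isSphereIso hf`) and isometry
`‖f u + f u'‖ = ‖f u - f (-u')‖ = ‖u + u'‖ = θ (u + u') = 2` (as `u + u' ` has `2 ≥ ‖u + u'‖ ≥ θ (u + u') = 2`, use
`IsPatch.le_norm`). Hence `‖a ŷ + b ŷ'‖ = a + b` for `a, b ≥ 0` (for `a ≤ b`:
`b ‖ŷ + ŷ'‖ - (b - a) ‖ŷ‖ ≤ ‖a ŷ + b ŷ'‖`): `‖w + w'‖ = ‖w‖ + ‖w'‖`. As `w + w' = 2 y₀`, `‖w‖ + ‖w'‖ = 2`.
`χ w ≤ ‖w‖`, `χ w' ≤ ‖w'‖`, `χ w + χ w' = 2`: so `χ w = ‖w‖`. So `ψ := χ` has the patch.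
For unit `x` with `θ x = 1`: `‖f z + f x‖ = ‖z + x‖ = 2` as above (here `‖z + x‖ ≥ θ (z + x) = 2`). Take `ξ`, `‖ξ‖ ≤ 1`,
`ξ (f z + f x) = 2`: `ξ (f z) = 1 = ξ (f x)`. `IsPatch.unique` gives `ξ = χ`. So `χ (f x) = 1`. -/
theorem exists_patch_image {f : X → Y} (hf : IsSphereIso f) {θ : X →L[ℝ] ℝ} {z : X} (hz : ‖z‖ = 1)
    (hθ : IsPatch θ z) :
    ∃ ψ : Y →L[ℝ] ℝ, IsPatch ψ (f z) ∧ ∀ x : X, ‖x‖ = 1 → θ x = 1 → ψ (f x) = 1 := by
  have hθle := hθ.le_norm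
  have hθz : θ z = 1 := by rw [hθ.apply_eq, hz]
  obtain ⟨r, hr, hrw⟩ := hθ
  set y₀ : Y := f z with hy₀
  have hy₀n : ‖y₀‖ = 1 := hf.norm_eq z hz
  have hy₀ne : y₀ ≠ 0 := by
    intro h0
    rw [h0, norm_zero] at hy₀n
    norm_num at hy₀n
  obtain ⟨χ, hχ1, hχ2⟩ := exists_dual_vector ℝ y₀ (norm_ne_zero_iff.mpr hy₀ne)
  have hχle : ∀ v, χ v ≤ ‖v‖ := by
    intro v
    have h3 := χ.le_opNorm v
    rw [hχ1, one_mul] at h3
    exact (le_abs_self _).trans h3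
  have hχy : χ y₀ = 1 := by
    rw [hχ2, hy₀n]
    simp
  -- unit vectors with value one under `θ` have sum of norm two
  have hsum2 : ∀ u u' : X, ‖u‖ = 1 → ‖u'‖ = 1 → θ u = 1 → θ u' = 1 → ‖u + u'‖ = 2 := by
    intro u u' hu hu' h1 h2
    apply le_antisymm
    · calc ‖u + u'‖ ≤ ‖u‖ + ‖u'‖ := norm_add_le _ _
        _ = 2 := by rw [hu, hu']; norm_num
    · have := hθle (u + u')
      rw [map_add, h1, h2] at this
      linarith
  -- the normalisation of a vector near `y₀` comes from the face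
  have hface : ∀ w : Y, ‖w - y₀‖ < min r 1 / 4 → 0 < ‖w‖ ∧ ∃ u : X, ‖u‖ = 1 ∧ θ u = 1 ∧ f u = ‖w‖⁻¹ • w := by
    intro w hw
    have hmin1 : min r 1 ≤ 1 := min_le_right _ _
    have hminr : min r 1 ≤ r := min_le_left _ _
    have hminpos : 0 < min r 1 := lt_min hr one_pos
    have hn : |‖w‖ - 1| ≤ ‖w - y₀‖ := by
      have := abs_norm_sub_norm_le w y₀
      rwa [hy₀n] at this
    have hwpos : 0 < ‖w‖ := by
      have := (abs_le.mp hn).1
      linarith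
    refine ⟨hwpos, ?_⟩
    have hunit : ‖‖w‖⁻¹ • w‖ = 1 := by
      rw [norm_smul, norm_inv, norm_norm, inv_mul_cancel₀ hwpos.ne']
    obtain ⟨u, hu, hfu⟩ := hf.surj _ hunit
    have hclose : ‖‖w‖⁻¹ • w - y₀‖ ≤ 2 * ‖w - y₀‖ := by
      have e : ‖w‖⁻¹ • w - w = (‖w‖⁻¹ * (1 - ‖w‖)) • w := by
        rw [mul_sub, mul_one, inv_mul_cancel₀ hwpos.ne', sub_smul, one_smul]
      have h1 : ‖‖w‖⁻¹ • w - w‖ = |‖w‖ - 1| := by
        rw [e, norm_smul, norm_mul, norm_inv, norm_norm, Real.norm_eq_abs]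
        rw [abs_sub_comm (1 : ℝ) ‖w‖]
        field_simp
      calc ‖‖w‖⁻¹ • w - y₀‖ = ‖(‖w‖⁻¹ • w - w) + (w - y₀)‖ := by
            congr 1
            abel
        _ ≤ ‖‖w‖⁻¹ • w - w‖ + ‖w - y₀‖ := norm_add_le _ _
        _ ≤ 2 * ‖w - y₀‖ := by rw [h1]; linarith
    have huz : ‖u - z‖ < r := by
      rw [← hf.iso u z hu hz, hfu]
      calc ‖‖w‖⁻¹ • w - f z‖ ≤ 2 * ‖w - y₀‖ := hclose
        _ < r := by nlinarith
    have h2 := hrw u huz
    rw [hu] at h2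
    exact ⟨u, hu, h2.symm, hfu⟩
  refine ⟨χ, ?_, ?_⟩
  · refine ⟨min r 1 / 4, by have := lt_min hr one_pos; positivity, fun w hw => ?_⟩
    set w' : Y := (2 : ℝ) • y₀ - w with hw'
    have hw'close : ‖w' - y₀‖ < min r 1 / 4 := by
      have e : w' - y₀ = -(w - y₀) := by
        rw [hw', two_smul]
        abel
      rw [e, norm_neg]
      exact hw
    obtain ⟨hp, u, hu, h1u, hfu⟩ := hface w hw
    obtain ⟨hp', u', hu', h1u', hfu'⟩ := hface w' hw'close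
    have hs := hsum2 u u' hu hu' h1u h1u'
    have hs' : ‖f u + f u'‖ = 2 := by rw [norm_image_add hf hu hu', hs]
    obtain ⟨ξ, hξle, hξ1, hξ2⟩ := exists_common (hf.norm_eq u hu) (hf.norm_eq u' hu') hs'
    rw [hfu] at hξ1
    rw [hfu'] at hξ2
    have e1 : ξ w = ‖w‖ := by
      rw [map_smul, smul_eq_mul] at hξ1
      field_simp at hξ1
      linarith
    have e2 : ξ w' = ‖w'‖ := by
      rw [map_smul, smul_eq_mul] at hξ2
      field_simp at hξ2
      linarith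
    have hplus : w + w' = (2 : ℝ) • y₀ := by
      rw [hw']
      abel
    have h3 : ‖w‖ + ‖w'‖ ≤ 2 := by
      have := hξle (w + w')
      rw [map_add, e1, e2, hplus, norm_smul, hy₀n] at this
      simpa using this
    have h4 : χ w + χ w' = 2 := by
      rw [← map_add, hplus, map_smul, hχy]
      simp
    have h5 := hχle w
    have h6 := hχle w'
    linarith
  · intro x hx hθx
    have hs := hsum2 z x hz hx hθz hθx
    have hs' : ‖f z + f x‖ = 2 := by rw [norm_image_add hf hz hx, hs]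
    obtain ⟨ξ, hξle, hξ1, hξ2⟩ := exists_common hy₀n (hf.norm_eq x hx) hs'
    have hpatch : IsPatch χ y₀ := by
      refine ⟨min r 1 / 4, by have := lt_min hr one_pos; positivity, fun w hw => ?_⟩
      set w' : Y := (2 : ℝ) • y₀ - w with hw'
      have hw'close : ‖w' - y₀‖ < min r 1 / 4 := by
        have e : w' - y₀ = -(w - y₀) := by
          rw [hw', two_smul]
          abel
        rw [e, norm_neg]
        exact hw
      obtain ⟨hp, u, hu, h1u, hfu⟩ := hface w hw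
      obtain ⟨hp', u', hu', h1u', hfu'⟩ := hface w' hw'close
      have hs₁ := hsum2 u u' hu hu' h1u h1u'
      have hs₂ : ‖f u + f u'‖ = 2 := by rw [norm_image_add hf hu hu', hs₁]
      obtain ⟨η, hηle, hη1, hη2⟩ := exists_common (hf.norm_eq u hu) (hf.norm_eq u' hu') hs₂
      rw [hfu] at hη1
      rw [hfu'] at hη2
      have e1 : η w = ‖w‖ := by
        rw [map_smul, smul_eq_mul] at hη1
        field_simp at hη1
        linarith
      have e2 : η w' = ‖w'‖ := by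
        rw [map_smul, smul_eq_mul] at hη2
        field_simp at hη2
        linarith
      have hplus : w + w' = (2 : ℝ) • y₀ := by
        rw [hw']
        abel
      have h3 : ‖w‖ + ‖w'‖ ≤ 2 := by
        have := hηle (w + w')
        rw [map_add, e1, e2, hplus, norm_smul, hy₀n] at this
        simpa using this
      have h4 : χ w + χ w' = 2 := by
        rw [← map_add, hplus, map_smul, hχy]
        simp
      have h5 := hχle w
      have h6 := hχle w'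
      linarith
    have hξeq : ξ = χ := hpatch.unique hξle (by rw [hξ1, hy₀n])
    rw [← hξeq]
    exact hξ2

/-- The star identity: near `x` in the face of `θ` one has `ψ ∘ f = θ` on the sphere.

Paper proof. `IsPatch θ (z + x)` (`IsPatch.add`, `θ x = 1 = ‖x‖`) with radius `r`; `IsPatch ψ (f z + f x)` with radius `r'`
(`hψ.add`, `ψ (f x) = 1 = ‖f x‖`). Let `ρ := min r r'`. For unit `y` with `‖y - x‖ < ρ`:
`‖z + y‖ = θ (z + y) = 1 + θ y` (`θ z = 1`), and `‖f y - f x‖ = ‖y - x‖` so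
`‖f z + f y‖ = ψ (f z + f y) = 1 + ψ (f y)` (`ψ (f z) = 1`). By oddness and isometry
`‖f z + f y‖ = ‖f z - f (-y)‖ = ‖z - (-y)‖ = ‖z + y‖`. So `ψ (f y) = θ y`. -/
theorem star_eq {f : X → Y} (hf : IsSphereIso f) {θ : X →L[ℝ] ℝ} {ψ : Y →L[ℝ] ℝ} {z x : X}
    (hz : ‖z‖ = 1) (hθ : IsPatch θ z) (hψ : IsPatch ψ (f z)) (hx : ‖x‖ = 1) (hθx : θ x = 1)
    (hψx : ψ (f x) = 1) :
    ∃ ρ : ℝ, 0 < ρ ∧ ∀ y : X, ‖y‖ = 1 → ‖y - x‖ < ρ → ψ (f y) = θ y := by
  have hθz : θ z = 1 := by rw [hθ.apply_eq, hz]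
  have hψz : ψ (f z) = 1 := by rw [hψ.apply_eq, hf.norm_eq z hz]
  have h1 : IsPatch θ (z + x) := hθ.add (by rw [hθx, hx])
  have h2 : IsPatch ψ (f z + f x) := hψ.add (by rw [hψx, hf.norm_eq x hx])
  obtain ⟨r, hr, hrw⟩ := h1
  obtain ⟨r', hr', hrw'⟩ := h2
  refine ⟨min r r', lt_min hr hr', fun y hy hyx => ?_⟩
  have a1 : ‖(z + y) - (z + x)‖ < r := by
    rw [add_sub_add_left_eq_sub]
    exact lt_of_lt_of_le hyx (min_le_left _ _)
  have a2 : ‖(f z + f y) - (f z + f x)‖ < r' := by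
    rw [add_sub_add_left_eq_sub, hf.iso y x hy hx]
    exact lt_of_lt_of_le hyx (min_le_right _ _)
  have b1 := hrw _ a1
  have b2 := hrw' _ a2
  rw [map_add, hθz] at b1
  rw [map_add, hψz] at b2
  have b3 := norm_image_add hf hz hy
  linarith

end Vale.Agent.Lib.P084.LFP
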