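/-
A sphere isometry is affine on the face of a patch (Mankiewicz on small balls, then connectedness).
-/
import Vale.Agent.Lib.P084.LFP.Image

namespace Vale.Agent.Lib.P084.LFP

open Vale.Agent.Lib.P084.UC Vale.Agent.Lib.P084.Inf

variable {X Y : Type*} [NormedAddCommGroup X] [NormedSpace ℝ X] [NormedAddCommGroup Y] [NormedSpace ℝ Y]

/-- The kernel of a continuous functional, as a submodule. -/
abbrev facetKer {E : Type*} [NormedAddCommGroup E] [NormedSpace ℝ E] (θ : E →L[ℝ] ℝ) : Submodule ℝ E :=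
  LinearMap.ker (θ : E →ₗ[ℝ] ℝ)

theorem mem_facetKer {E : Type*} [NormedAddCommGroup E] [NormedSpace ℝ E] {θ : E →L[ℝ] ℝ} {k : E} :
    k ∈ facetKer θ ↔ θ k = 0 := by
  simp [facetKer, LinearMap.mem_ker]

/-- Patch points form an open set. -/
theorem IsPatch.facet_shift {θ : X →L[ℝ] ℝ} {y : X} (h : IsPatch θ y) :
    ∃ r : ℝ, 0 < r ∧ ∀ y' : X, ‖y' - y‖ < r → IsPatch θ y' := by
  obtain ⟨r, hr, hw⟩ := h
  refine ⟨r / 2, by linarith, fun y' hy' => ⟨r / 2, by linarith, fun w hw' => hw w ?_⟩⟩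
  have h1 : ‖w - y‖ ≤ ‖w - y'‖ + ‖y' - y‖ := by
    have := norm_add_le (w - y') (y' - y)
    rwa [sub_add_sub_cancel] at this
  linarith

/-- Step one: the local form. Near a patch point, `f` is affine on the face, by Mankiewicz on balls. -/
theorem facet_local {f : X → Y} (hf : IsSphereIso f) {θ : X →L[ℝ] ℝ} {ψ : Y →L[ℝ] ℝ} {z : X}
    (hz : ‖z‖ = 1) (hθ : IsPatch θ z) (hψ : IsPatch ψ (f z))
    (hface : ∀ x : X, ‖x‖ = 1 → θ x = 1 → ψ (f x) = 1) :
    ∃ (L : facetKer θ ≃ₗᵢ[ℝ] facetKer ψ) (r : ℝ), 0 < r ∧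
      ∀ k : facetKer θ, ‖k‖ < r → f (z + (k : X)) = f z + (L k : Y) := by
  classical
  have hθz : θ z = 1 := by rw [hθ.apply_eq, hz]
  have hfz : ‖f z‖ = 1 := hf.norm_eq z hz
  have hψz : ψ (f z) = 1 := by rw [hψ.apply_eq, hfz]
  obtain ⟨r₁, hr₁, hw₁⟩ := hθ
  obtain ⟨r₂, hr₂, hw₂⟩ := hψ
  obtain ⟨r, hr, hrr₁, hrr₂⟩ : ∃ r : ℝ, 0 < r ∧ r ≤ r₁ ∧ r ≤ r₂ :=
    ⟨min r₁ r₂, lt_min hr₁ hr₂, min_le_left _ _, min_le_right _ _⟩
  have hrinv : r⁻¹ * r = 1 := inv_mul_cancel₀ hr.ne'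
  have hrinv' : r * r⁻¹ = 1 := mul_inv_cancel₀ hr.ne'
  have hrabs : ‖r‖ = r := Real.norm_of_nonneg hr.le
  have hrinvabs : ‖r⁻¹‖ = r⁻¹ := Real.norm_of_nonneg (inv_pos.mpr hr).le
  -- points of the face near `z`
  have hunit : ∀ k : X, θ k = 0 → ‖k‖ < r → ‖z + k‖ = 1 ∧ θ (z + k) = 1 := by
    intro k hk hkr
    have h1 := hw₁ (z + k) (by rw [add_sub_cancel_left]; linarith)
    rw [map_add, hk, add_zero, hθz] at h1
    rw [map_add, hk, add_zero, hθz]
    exact ⟨h1, rfl⟩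
  have hsmallζ : ∀ ζ : facetKer θ, ‖ζ‖ < 1 → θ (r • (ζ : X)) = 0 ∧ ‖r • (ζ : X)‖ < r := by
    intro ζ hζ
    have hζ0 : θ (ζ : X) = 0 := mem_facetKer.mp ζ.2
    refine ⟨by rw [map_smul, hζ0, smul_zero], ?_⟩
    rw [norm_smul, hrabs]
    have : ‖(ζ : X)‖ < 1 := hζ
    nlinarith
  have hmem : ∀ ζ : facetKer θ, ‖ζ‖ < 1 → r⁻¹ • (f (z + r • (ζ : X)) - f z) ∈ facetKer ψ := by
    intro ζ hζ
    obtain ⟨h0, h1⟩ := hsmallζ ζ hζ
    obtain ⟨h2, h3⟩ := hunit _ h0 h1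
    rw [mem_facetKer, map_smul, map_sub, hface _ h2 h3, hψz, sub_self, smul_zero]
  let T : facetKer θ → facetKer ψ := fun ζ =>
    if h : ‖ζ‖ < 1 then ⟨r⁻¹ • (f (z + r • (ζ : X)) - f z), hmem ζ h⟩ else 0
  have hT : ∀ ζ : facetKer θ, ‖ζ‖ < 1 → ((T ζ : facetKer ψ) : Y) = r⁻¹ • (f (z + r • (ζ : X)) - f z) := by
    intro ζ hζ
    simp only [T, dif_pos hζ]
  have hT0 : T 0 = 0 := by
    apply Subtype.ext
    rw [hT 0 (by simp)]
    simp
  have hiso : ∀ ζ ζ' : facetKer θ, ‖ζ‖ < 1 → ‖ζ'‖ < 1 → ‖T ζ - T ζ'‖ = ‖ζ - ζ'‖ := by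
    intro ζ ζ' hζ hζ'
    obtain ⟨h0, h1⟩ := hsmallζ ζ hζ
    obtain ⟨h0', h1'⟩ := hsmallζ ζ' hζ'
    obtain ⟨h2, -⟩ := hunit _ h0 h1
    obtain ⟨h2', -⟩ := hunit _ h0' h1'
    have e1 : ‖T ζ - T ζ'‖ = ‖((T ζ : facetKer ψ) : Y) - ((T ζ' : facetKer ψ) : Y)‖ := rfl
    have e2 : ‖ζ - ζ'‖ = ‖(ζ : X) - (ζ' : X)‖ := rfl
    rw [e1, e2, hT ζ hζ, hT ζ' hζ', ← smul_sub, norm_smul, hrinvabs]
    have e3 : f (z + r • (ζ : X)) - f z - (f (z + r • (ζ' : X)) - f z)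
        = f (z + r • (ζ : X)) - f (z + r • (ζ' : X)) := by abel
    rw [e3, hf.iso _ _ h2 h2']
    have e4 : z + r • (ζ : X) - (z + r • (ζ' : X)) = r • ((ζ : X) - (ζ' : X)) := by
      rw [smul_sub]; abel
    rw [e4, norm_smul, hrabs, ← mul_assoc, hrinv, one_mul]
  have honto : ∀ y : facetKer ψ, ‖y‖ < 1 → ∃ ζ : facetKer θ, ‖ζ‖ < 1 ∧ T ζ = y := by
    intro y hy
    have hy0 : ψ (y : Y) = 0 := mem_facetKer.mp y.2
    have hyn : ‖(y : Y)‖ < 1 := hy
    have hrs : ‖r • (y : Y)‖ < r := by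
      rw [norm_smul, hrabs]
      nlinarith
    have hw := hw₂ (f z + r • (y : Y)) (by rw [add_sub_cancel_left]; linarith)
    rw [map_add, map_smul, hy0, smul_zero, add_zero, hψz] at hw
    obtain ⟨u, hu, hfu⟩ := hf.surj _ hw
    have hd : ‖u - z‖ = ‖r • (y : Y)‖ := by
      rw [← hf.iso u z hu hz, hfu, add_sub_cancel_left]
    have hdr : ‖u - z‖ < r := by rw [hd]; exact hrs
    have hθu : θ u = 1 := by
      rw [← hw₁ u (by linarith), hu]
    have hk : r⁻¹ • (u - z) ∈ facetKer θ := by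
      rw [mem_facetKer, map_smul, map_sub, hθu, hθz, sub_self, smul_zero]
    have hrk : r • (r⁻¹ • (u - z)) = u - z := by
      rw [smul_smul, hrinv', one_smul]
    have hζ : ‖(⟨r⁻¹ • (u - z), hk⟩ : facetKer θ)‖ < 1 := by
      have : ‖(⟨r⁻¹ • (u - z), hk⟩ : facetKer θ)‖ = ‖r⁻¹ • (u - z)‖ := rfl
      rw [this, norm_smul, hrinvabs]
      have : r⁻¹ * ‖u - z‖ < r⁻¹ * r := mul_lt_mul_of_pos_left hdr (inv_pos.mpr hr)
      rwa [hrinv] at this
    refine ⟨⟨r⁻¹ • (u - z), hk⟩, hζ, ?_⟩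
    apply Subtype.ext
    rw [hT _ hζ]
    show r⁻¹ • (f (z + r • (r⁻¹ • (u - z))) - f z) = (y : Y)
    rw [hrk, add_sub_cancel, hfu, add_sub_cancel_left, smul_smul, hrinv, one_smul]
  obtain ⟨L, hL⟩ := LpSum.ball_linear hT0 hiso honto
  refine ⟨L, r, hr, fun k hk => ?_⟩
  have hkX : ‖(k : X)‖ < r := hk
  have hζmem : r⁻¹ • (k : X) ∈ facetKer θ :=
    (facetKer θ).smul_mem _ k.2
  let ζ : facetKer θ := r⁻¹ • k
  have hζ : ‖ζ‖ < 1 := by
    have : ‖ζ‖ = r⁻¹ * ‖k‖ := by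
      show ‖r⁻¹ • k‖ = _
      rw [norm_smul, hrinvabs]
    rw [this]
    have : r⁻¹ * ‖k‖ < r⁻¹ * r := mul_lt_mul_of_pos_left hk (inv_pos.mpr hr)
    rwa [hrinv] at this
  have h1 := hT ζ hζ
  rw [hL ζ hζ] at h1
  have h2 : r • (ζ : X) = (k : X) := by
    show r • (r⁻¹ • (k : X)) = _
    rw [smul_smul, hrinv', one_smul]
  rw [h2] at h1
  have h3 : ((L ζ : facetKer ψ) : Y) = r⁻¹ • (L k : Y) := by
    have : L ζ = r⁻¹ • L k := map_smul L r⁻¹ k
    rw [this]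
    rfl
  rw [h3] at h1
  have h4 : (L k : Y) = f (z + (k : X)) - f z := by
    have := congrArg (fun v : Y => r • v) h1
    simp only [smul_smul, hrinv', one_smul] at this
    exact this
  rw [h4]
  abel

/-- The face of a patch: a linear map `T : X → Y` agreeing with `f` on the whole face `{‖x‖ = 1, θ x = 1}`,
isometric on `ker θ`, with `ψ ∘ T = θ` and `T (ker θ) = ker ψ`. -/
theorem exists_facet {f : X → Y} (hf : IsSphereIso f) {θ : X →L[ℝ] ℝ} {z₀ : X} (hz₀ : ‖z₀‖ = 1)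
    (hθ : IsPatch θ z₀) :
    ∃ (ψ : Y →L[ℝ] ℝ) (T : X →ₗ[ℝ] Y),
      IsPatch ψ (f z₀) ∧
      (∀ x : X, ‖x‖ = 1 → θ x = 1 → ψ (f x) = 1) ∧
      (∀ x : X, ‖x‖ = 1 → θ x = 1 → f x = T x) ∧
      (∀ k : X, θ k = 0 → ‖T k‖ = ‖k‖) ∧
      (∀ v : X, ψ (T v) = θ v) ∧
      (∀ w : Y, ψ w = 0 → ∃ k : X, θ k = 0 ∧ T k = w) := by
  classical
  obtain ⟨ψ, hψ, hface⟩ := exists_patch_image hf hz₀ hθ
  have hθz₀ : θ z₀ = 1 := by rw [hθ.apply_eq, hz₀]
  have hfz₀ : ‖f z₀‖ = 1 := hf.norm_eq z₀ hz₀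
  have hψz₀ : ψ (f z₀) = 1 := by rw [hψ.apply_eq, hfz₀]
  -- every patch point of the face has patch functional `ψ` at its image
  have hpatchψ : ∀ z : X, ‖z‖ = 1 → IsPatch θ z → IsPatch ψ (f z) := by
    intro z hz hθp
    obtain ⟨χ, hχ, hχface⟩ := exists_patch_image hf hz hθp
    have : χ = ψ := hψ.unique hχ.le_norm (by rw [hχface z₀ hz₀ hθz₀, hfz₀])
    rwa [this] at hχ
  obtain ⟨L, r₀, hr₀, hL⟩ := facet_local hf hz₀ hθ hψ hface
  -- the relative interior of the face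
  let A : Set (facetKer θ) := {k | IsPatch θ (z₀ + (k : X))}
  let u : Set (facetKer θ) := {k | ∃ ρ : ℝ, 0 < ρ ∧ ∀ k' : facetKer θ, ‖k' - k‖ < ρ →
    IsPatch θ (z₀ + (k' : X)) ∧ f (z₀ + (k' : X)) = f z₀ + (L k' : Y)}
  have hAunit : ∀ k : facetKer θ, k ∈ A → ‖z₀ + (k : X)‖ = 1 ∧ θ (z₀ + (k : X)) = 1 := by
    intro k hk
    have hk0 : θ (k : X) = 0 := mem_facetKer.mp k.2
    have h1 : θ (z₀ + (k : X)) = 1 := by rw [map_add, hk0, add_zero, hθz₀]
    have h2 : IsPatch θ (z₀ + (k : X)) := hk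
    exact ⟨by rw [← h2.apply_eq, h1], h1⟩
  have hAconv : Convex ℝ A := by
    intro a ha b hb s t hs ht hst
    by_cases hs0 : s = 0
    · have ht1 : t = 1 := by linarith
      subst hs0
      subst ht1
      simpa using hb
    have hspos : 0 < s := lt_of_le_of_ne hs (Ne.symm hs0)
    have ha' : IsPatch θ (z₀ + (a : X)) := ha
    have hb' : IsPatch θ (z₀ + (b : X)) := hb
    have h1 := ha'.combo hb'.apply_eq hspos ht
    have e : s • (z₀ + (a : X)) + t • (z₀ + (b : X)) = z₀ + ((s • a + t • b : facetKer θ) : X) := by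
      have hz : z₀ = s • z₀ + t • z₀ := by rw [← add_smul, hst, one_smul]
      simp only [Submodule.coe_add, Submodule.coe_smul, smul_add]
      nth_rewrite 3 [hz]
      abel
    show IsPatch θ (z₀ + ((s • a + t • b : facetKer θ) : X))
    rwa [← e]
  have huopen : IsOpen u := by
    rw [Metric.isOpen_iff]
    rintro k ⟨ρ, hρ, hk⟩
    refine ⟨ρ, hρ, fun k₁ hk₁ => ?_⟩
    have hk₁' : ‖k₁ - k‖ < ρ := by
      rw [Metric.mem_ball, dist_eq_norm] at hk₁
      exact hk₁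
    refine ⟨ρ - ‖k₁ - k‖, by linarith, fun k' hk' => hk k' ?_⟩
    have h1 : ‖k' - k‖ ≤ ‖k' - k₁‖ + ‖k₁ - k‖ := by
      have := norm_add_le (k' - k₁) (k₁ - k)
      rwa [sub_add_sub_cancel] at this
    linarith
  have h0mem : (0 : facetKer θ) ∈ A ∩ u := by
    constructor
    · show IsPatch θ (z₀ + ((0 : facetKer θ) : X))
      simpa using hθ
    · obtain ⟨r', hr', hs⟩ := hθ.facet_shift
      refine ⟨min r₀ r', lt_min hr₀ hr', fun k' hk' => ?_⟩
      rw [sub_zero] at hk'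
      have h1 : ‖k'‖ < r₀ := lt_of_lt_of_le hk' (min_le_left _ _)
      have h2 : ‖k'‖ < r' := lt_of_lt_of_le hk' (min_le_right _ _)
      refine ⟨hs _ ?_, hL k' h1⟩
      rw [add_sub_cancel_left]
      exact h2
  have hclosed : closure u ∩ A ⊆ u := by
    rintro k ⟨hkc, hkA⟩
    obtain ⟨hzu, hzθ⟩ := hAunit k hkA
    have hkA' : IsPatch θ (z₀ + (k : X)) := hkA
    obtain ⟨Lz, rz, hrz, hLz⟩ := facet_local hf hzu hkA' (hpatchψ _ hzu hkA') hface
    obtain ⟨r', hr', hs⟩ := hkA'.facet_shift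
    obtain ⟨k₁, hk₁u, hk₁d⟩ := Metric.mem_closure_iff.mp hkc (rz / 2) (by linarith)
    rw [dist_comm, dist_eq_norm] at hk₁d
    obtain ⟨ρ₁, hρ₁, hk₁⟩ := hk₁u
    -- the translation form of the local statement
    have hLz' : ∀ k' : facetKer θ, ‖k' - k‖ < rz →
        f (z₀ + (k' : X)) = f (z₀ + (k : X)) + (Lz (k' - k) : Y) := by
      intro k' hk'
      have := hLz (k' - k) hk'
      rw [← this]
      congr 1
      simp only [Submodule.coe_sub]
      abel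
    have hk₁ρ : f (z₀ + (k₁ : X)) = f z₀ + (L k₁ : Y) := (hk₁ k₁ (by simpa using hρ₁)).2
    have hk₁z : f (z₀ + (k₁ : X)) = f (z₀ + (k : X)) + (Lz (k₁ - k) : Y) :=
      hLz' k₁ (by linarith)
    -- the two linear maps agree
    have hLL : ∀ v : facetKer θ, (L v : Y) = (Lz v : Y) := by
      intro v
      obtain ⟨t, ht, ht1, ht2⟩ : ∃ t : ℝ, 0 < t ∧ t * ‖v‖ < ρ₁ ∧ t * ‖v‖ < rz / 2 := by
        refine ⟨min ρ₁ (rz / 2) / (2 * (‖v‖ + 1)), ?_, ?_, ?_⟩
        · have : 0 < min ρ₁ (rz / 2) := lt_min hρ₁ (by linarith)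
          positivity
        all_goals
          have hm : 0 < min ρ₁ (rz / 2) := lt_min hρ₁ (by linarith)
          have h1 : min ρ₁ (rz / 2) ≤ ρ₁ := min_le_left _ _
          have h2 : min ρ₁ (rz / 2) ≤ rz / 2 := min_le_right _ _
          have hv : 0 ≤ ‖v‖ := norm_nonneg _
          have h3 : min ρ₁ (rz / 2) / (2 * (‖v‖ + 1)) * ‖v‖ < min ρ₁ (rz / 2) := by
            rw [div_mul_eq_mul_div, div_lt_iff₀ (by positivity)]
            nlinarith
          linarith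
      have hk₂1 : ‖(k₁ + t • v) - k₁‖ < ρ₁ := by
        rw [add_sub_cancel_left, norm_smul, Real.norm_of_nonneg ht.le]
        exact ht1
      have hk₂2 : ‖(k₁ + t • v) - k‖ < rz := by
        have h1 : ‖(k₁ + t • v) - k‖ ≤ ‖k₁ - k‖ + ‖t • v‖ := by
          have e : (k₁ + t • v) - k = (k₁ - k) + t • v := by abel
          rw [e]
          exact norm_add_le _ _
        rw [norm_smul, Real.norm_of_nonneg ht.le] at h1
        linarith
      have e1 := (hk₁ _ hk₂1).2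
      have e2 := hLz' _ hk₂2
      rw [e1] at e2
      have e3 : ((L (k₁ + t • v) : facetKer ψ) : Y) = (L k₁ : Y) + t • (L v : Y) := by
        rw [map_add, map_smul]
        rfl
      have e4 : ((Lz ((k₁ + t • v) - k) : facetKer ψ) : Y) = (Lz (k₁ - k) : Y) + t • (Lz v : Y) := by
        have : (k₁ + t • v) - k = (k₁ - k) + t • v := by abel
        rw [this, map_add, map_smul]
        rfl
      rw [e3, e4] at e2
      have e5 : f z₀ + (L k₁ : Y) = f (z₀ + (k : X)) + (Lz (k₁ - k) : Y) := by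
        rw [← hk₁ρ, hk₁z]
      have e6 : t • (L v : Y) = t • (Lz v : Y) := by
        have h1 : f z₀ + (L k₁ : Y) + t • (L v : Y) = f (z₀ + (k : X)) + ((Lz (k₁ - k) : Y) + t • (Lz v : Y)) := by
          rw [add_assoc]
          exact e2
        rw [e5, add_assoc] at h1
        exact add_left_cancel (add_left_cancel h1)
      exact smul_right_injective Y ht.ne' e6
    -- finish
    refine ⟨min rz r', lt_min hrz hr', fun k' hk' => ?_⟩
    have h1 : ‖k' - k‖ < rz := lt_of_lt_of_le hk' (min_le_left _ _)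
    have h2 : ‖k' - k‖ < r' := lt_of_lt_of_le hk' (min_le_right _ _)
    constructor
    · apply hs
      have e : z₀ + (k' : X) - (z₀ + (k : X)) = ((k' - k : facetKer θ) : X) := by
        simp only [Submodule.coe_sub]
        abel
      rw [e]
      exact h2
    · rw [hLz' k' h1, ← hLL]
      have e5 : f (z₀ + (k : X)) + (L (k₁ - k) : Y) = f z₀ + (L k₁ : Y) := by
        rw [hLL (k₁ - k), ← hk₁z, hk₁ρ]
      have e6 : ((L (k₁ - k) : facetKer ψ) : Y) = (L k₁ : Y) - (L k : Y) := by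
        rw [map_sub]
        rfl
      have e7 : ((L (k' - k) : facetKer ψ) : Y) = (L k' : Y) - (L k : Y) := by
        rw [map_sub]
        rfl
      rw [e6] at e5
      rw [e7]
      have e8 : f (z₀ + (k : X)) = f z₀ + (L k : Y) := by
        have : f (z₀ + (k : X)) + ((L k₁ : Y) - (L k : Y)) + (L k : Y) = f z₀ + (L k₁ : Y) + (L k : Y) := by
          rw [e5]
        have h3 : f (z₀ + (k : X)) + (L k₁ : Y) = f z₀ + (L k : Y) + (L k₁ : Y) := by
          calc f (z₀ + (k : X)) + (L k₁ : Y)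
              = f (z₀ + (k : X)) + ((L k₁ : Y) - (L k : Y)) + (L k : Y) := by abel
            _ = f z₀ + (L k₁ : Y) + (L k : Y) := this
            _ = f z₀ + (L k : Y) + (L k₁ : Y) := by abel
        exact add_right_cancel h3
      rw [e8]
      abel
  have hAu : A ⊆ u := hAconv.isPreconnected.subset_of_closure_inter_subset huopen ⟨0, h0mem⟩ hclosed
  have hAeq : ∀ k : facetKer θ, k ∈ A → f (z₀ + (k : X)) = f z₀ + (L k : Y) := by
    intro k hk
    obtain ⟨ρ, hρ, h⟩ := hAu hk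
    exact (h k (by simpa using hρ)).2
  -- the whole face
  have hfaceeq : ∀ x : X, ‖x‖ = 1 → (hx : θ x = 1) →
      f x = f z₀ + (L ⟨x - z₀, mem_facetKer.mpr (by rw [map_sub, hx, hθz₀, sub_self])⟩ : Y) := by
    intro x hx hθx
    set k₀ : facetKer θ := ⟨x - z₀, mem_facetKer.mpr (by rw [map_sub, hθx, hθz₀, sub_self])⟩ with hk₀
    have hk₀X : (k₀ : X) = x - z₀ := rfl
    have hbound : ∀ t : ℝ, 0 < t → t ≤ 1 → ‖f x - (f z₀ + (L k₀ : Y))‖ ≤ 2 * t * ‖k₀‖ := by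
      intro t ht ht1
      have ht0 : 0 ≤ 1 - t := by linarith
      have hmemA : ((1 - t) • k₀ : facetKer θ) ∈ A := by
        show IsPatch θ (z₀ + (((1 - t) • k₀ : facetKer θ) : X))
        have h1 := hθ.combo (x := x) (by rw [hx, hθx]) ht ht0
        have e : t • z₀ + (1 - t) • x = z₀ + (((1 - t) • k₀ : facetKer θ) : X) := by
          have e0 : (((1 - t) • k₀ : facetKer θ) : X) = (1 - t) • (x - z₀) := rfl
          rw [e0]
          simp only [smul_sub, sub_smul, one_smul]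
          abel
        rwa [← e]
      have h2 := hAeq _ hmemA
      obtain ⟨h3, -⟩ := hAunit _ hmemA
      have h4 : ‖f x - f (z₀ + (((1 - t) • k₀ : facetKer θ) : X))‖ = t * ‖k₀‖ := by
        rw [hf.iso _ _ hx h3]
        have e : x - (z₀ + (((1 - t) • k₀ : facetKer θ) : X)) = t • (k₀ : X) := by
          have e0 : (((1 - t) • k₀ : facetKer θ) : X) = (1 - t) • (x - z₀) := rfl
          rw [e0, hk₀X]
          simp only [smul_sub, sub_smul, one_smul]
          abel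
        rw [e, norm_smul, Real.norm_of_nonneg ht.le]
        rfl
      have h5 : ‖((L ((1 - t) • k₀) : facetKer ψ) : Y) - (L k₀ : Y)‖ = t * ‖k₀‖ := by
        have e : ((L ((1 - t) • k₀) : facetKer ψ) : Y) - (L k₀ : Y) = -(t • (L k₀ : Y)) := by
          rw [map_smul]
          show (1 - t) • (L k₀ : Y) - (L k₀ : Y) = _
          rw [sub_smul, one_smul]
          abel
        rw [e, norm_neg, norm_smul, Real.norm_of_nonneg ht.le]
        have : ‖(L k₀ : Y)‖ = ‖k₀‖ := L.norm_map k₀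
        rw [this]
      rw [h2] at h4
      have e : f x - (f z₀ + (L k₀ : Y)) = (f x - (f z₀ + ((L ((1 - t) • k₀) : facetKer ψ) : Y)))
          + (((L ((1 - t) • k₀) : facetKer ψ) : Y) - (L k₀ : Y)) := by abel
      rw [e]
      calc _ ≤ _ := norm_add_le _ _
        _ = 2 * t * ‖k₀‖ := by rw [h4, h5]; ring
    have hzero : ‖f x - (f z₀ + (L k₀ : Y))‖ ≤ 0 := by
      apply le_of_forall_pos_le_add
      intro ε hε
      have hn : 0 ≤ ‖k₀‖ := norm_nonneg _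
      have hpos : 0 < 2 * ‖k₀‖ + 1 := by linarith
      obtain ⟨t, ht, ht1, ht2⟩ : ∃ t : ℝ, 0 < t ∧ t ≤ 1 ∧ t * (2 * ‖k₀‖ + 1) ≤ ε := by
        refine ⟨min 1 (ε / (2 * ‖k₀‖ + 1)), lt_min one_pos (by positivity), min_le_left _ _, ?_⟩
        have : min 1 (ε / (2 * ‖k₀‖ + 1)) ≤ ε / (2 * ‖k₀‖ + 1) := min_le_right _ _
        calc _ ≤ ε / (2 * ‖k₀‖ + 1) * (2 * ‖k₀‖ + 1) :=
              mul_le_mul_of_nonneg_right this hpos.le
          _ = ε := by field_simp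
      have := hbound t ht ht1
      nlinarith
    have hd : f x - (f z₀ + (L k₀ : Y)) = 0 := norm_le_zero_iff.mp hzero
    exact sub_eq_zero.mp hd
  -- the retraction onto the kernel and the linear map
  have hPmem : ∀ v : X, v - θ v • z₀ ∈ facetKer θ := by
    intro v
    rw [mem_facetKer, map_sub, map_smul, hθz₀, smul_eq_mul, mul_one, sub_self]
  let P : X →ₗ[ℝ] facetKer θ := LinearMap.codRestrict (facetKer θ)
    (LinearMap.id - (θ : X →ₗ[ℝ] ℝ).smulRight z₀) (fun v => hPmem v)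
  have hP : ∀ v : X, ((P v : facetKer θ) : X) = v - θ v • z₀ := fun v => rfl
  let T : X →ₗ[ℝ] Y := (facetKer ψ).subtype ∘ₗ (L.toLinearEquiv : facetKer θ →ₗ[ℝ] facetKer ψ) ∘ₗ P
    + (θ : X →ₗ[ℝ] ℝ).smulRight (f z₀)
  have hT : ∀ v : X, T v = (L (P v) : Y) + θ v • f z₀ := fun v => rfl
  refine ⟨ψ, T, hψ, hface, ?_, ?_, ?_, ?_⟩
  · intro x hx hθx
    have hPx : P x = ⟨x - z₀, mem_facetKer.mpr (by rw [map_sub, hθx, hθz₀, sub_self])⟩ := by
      apply Subtype.ext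
      show x - θ x • z₀ = x - z₀
      rw [hθx, one_smul]
    rw [hT, hθx, one_smul, hPx, add_comm]
    exact hfaceeq x hx hθx
  · intro k hk
    have hPk : P k = ⟨k, mem_facetKer.mpr hk⟩ := by
      apply Subtype.ext
      show k - θ k • z₀ = k
      rw [hk, zero_smul, sub_zero]
    rw [hT, hk, zero_smul, add_zero, hPk]
    exact L.norm_map _
  · intro v
    rw [hT, map_add, map_smul, hψz₀, smul_eq_mul, mul_one, mem_facetKer.mp (L (P v)).2, zero_add]
  · intro w hw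
    refine ⟨(L.symm ⟨w, mem_facetKer.mpr hw⟩ : facetKer θ), mem_facetKer.mp (L.symm _).2, ?_⟩
    have hk0 : θ ((L.symm ⟨w, mem_facetKer.mpr hw⟩ : facetKer θ) : X) = 0 := mem_facetKer.mp (L.symm _).2
    have hPk : P ((L.symm ⟨w, mem_facetKer.mpr hw⟩ : facetKer θ) : X) = L.symm ⟨w, mem_facetKer.mpr hw⟩ := by
      apply Subtype.ext
      rw [hP, hk0, zero_smul, sub_zero]
    rw [hT, hk0, zero_smul, add_zero, hPk, L.apply_symm_apply]

end Vale.Agent.Lib.P084.LFP
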