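/-
Local structure: near a non-patch point a sphere isometry is the restriction of an affine map.

Near a unit vector `x` the norm is the maximum of finitely many functionals `θ ∈ Θ`; on each face `f` is a
linear map `T θ`, with `ψ θ ∘ f = θ` near `x`.  The common kernel of the `θ` acts by translations.  Two chords
with the same difference have images differing by an element `T η` with `η` in the common kernel; then
`l ↦ ‖W + T l‖` is `η`-periodic and coercive, so `η = 0`: the image of a chord depends only on the chord.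
-/
import Vale.Agent.Lib.P084.LFP.Chart
import Vale.Agent.Lib.P084.LFP.Facet

namespace Vale.Agent.Lib.P084.LFP

open Vale.Agent.Lib.P084.UC Vale.Agent.Lib.P084.Inf

variable {X Y : Type*} [NormedAddCommGroup X] [NormedSpace ℝ X] [NormedAddCommGroup Y] [NormedSpace ℝ Y]

/-- The data of a chart at `x`. -/
structure ChartData (f : X → Y) (x : X) (Θ : Finset (X →L[ℝ] ℝ)) (ρ : ℝ)
    (ψ : (X →L[ℝ] ℝ) → (Y →L[ℝ] ℝ)) (T : (X →L[ℝ] ℝ) → (X →ₗ[ℝ] Y))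
    (zz : (X →L[ℝ] ℝ) → X) : Prop where
  hx : ‖x‖ = 1
  hρ : 0 < ρ
  hmax : ∀ w : X, ‖w - x‖ < ρ → ∃ θ ∈ Θ, θ w = ‖w‖
  hθx : ∀ θ ∈ Θ, θ x = 1
  hz : ∀ θ ∈ Θ, ‖zz θ‖ = 1
  hp : ∀ θ ∈ Θ, IsPatch θ (zz θ)
  hfT : ∀ θ ∈ Θ, ∀ y : X, ‖y‖ = 1 → θ y = 1 → f y = T θ y
  hiso : ∀ θ ∈ Θ, ∀ k : X, θ k = 0 → ‖T θ k‖ = ‖k‖
  hψT : ∀ θ ∈ Θ, ∀ v : X, ψ θ (T θ v) = θ v
  honto : ∀ θ ∈ Θ, ∀ w : Y, ψ θ w = 0 → ∃ k : X, θ k = 0 ∧ T θ k = w
  hstar : ∀ θ ∈ Θ, ∃ r : ℝ, 0 < r ∧ ∀ y : X, ‖y‖ = 1 → ‖y - x‖ < r → ψ θ (f y) = θ y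

theorem exists_chartData (hX : LocFinPoly X) {f : X → Y} (hf : IsSphereIso f) {x : X} (hx : ‖x‖ = 1) :
    ∃ (Θ : Finset (X →L[ℝ] ℝ)) (ρ : ℝ) (ψ : (X →L[ℝ] ℝ) → (Y →L[ℝ] ℝ))
      (T : (X →L[ℝ] ℝ) → (X →ₗ[ℝ] Y)) (zz : (X →L[ℝ] ℝ) → X), ChartData f x Θ ρ ψ T zz := by
  classical
  obtain ⟨Θ, ρ, hρ, h1, h2⟩ := exists_chart hX hx
  have key : ∀ θ : X →L[ℝ] ℝ, ∃ (z : X) (ψ : Y →L[ℝ] ℝ) (T : X →ₗ[ℝ] Y), θ ∈ Θ →
      (‖z‖ = 1 ∧ IsPatch θ z ∧ (∀ y : X, ‖y‖ = 1 → θ y = 1 → f y = T y) ∧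
        (∀ k : X, θ k = 0 → ‖T k‖ = ‖k‖) ∧ (∀ v : X, ψ (T v) = θ v) ∧
        (∀ w : Y, ψ w = 0 → ∃ k : X, θ k = 0 ∧ T k = w) ∧
        ∃ r : ℝ, 0 < r ∧ ∀ y : X, ‖y‖ = 1 → ‖y - x‖ < r → ψ (f y) = θ y) := by
    intro θ
    by_cases hθ : θ ∈ Θ
    · obtain ⟨hθx, z, hz, hp⟩ := h1 θ hθ
      obtain ⟨ψ, T, hψp, hψ1, hfT, hiso, hψT, honto⟩ := exists_facet hf hz hp
      exact ⟨z, ψ, T, fun _ => ⟨hz, hp, hfT, hiso, hψT, honto,
        star_eq hf hz hp hψp hx hθx (hψ1 x hx hθx)⟩⟩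
    · exact ⟨0, 0, 0, fun h => absurd h hθ⟩
  choose zz ψ T hall using key
  exact ⟨Θ, ρ, ψ, T, zz,
    { hx := hx
      hρ := hρ
      hmax := h2
      hθx := fun θ hθ => (h1 θ hθ).1
      hz := fun θ hθ => (hall θ hθ).1
      hp := fun θ hθ => (hall θ hθ).2.1
      hfT := fun θ hθ => (hall θ hθ).2.2.1
      hiso := fun θ hθ => (hall θ hθ).2.2.2.1
      hψT := fun θ hθ => (hall θ hθ).2.2.2.2.1
      honto := fun θ hθ => (hall θ hθ).2.2.2.2.2.1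
      hstar := fun θ hθ => (hall θ hθ).2.2.2.2.2.2 }⟩

theorem exists_e0 {θ₁ θ₂ : X →L[ℝ] ℝ} {x : X} (hne : θ₁ ≠ θ₂) (h1 : θ₁ x = 1) (h2 : θ₂ x = 1) :
    ∃ e₀ : X, θ₁ e₀ = 0 ∧ θ₂ e₀ = 1 := by
  have : ∃ v, θ₁ v ≠ θ₂ v := by
    by_contra hcon
    push_neg at hcon
    exact hne (ContinuousLinearMap.ext hcon)
  obtain ⟨v, hv⟩ := this
  have hd : θ₂ v - θ₁ v ≠ 0 := sub_ne_zero.mpr (Ne.symm hv)
  refine ⟨(θ₂ v - θ₁ v)⁻¹ • (v - θ₁ v • x), ?_, ?_⟩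
  · rw [map_smul, map_sub, map_smul, h1]
    simp
  · rw [map_smul, map_sub, map_smul, h2]
    simp only [smul_eq_mul, mul_one]
    exact inv_mul_cancel₀ hd

theorem two_of_not_patch {Θ : Finset (X →L[ℝ] ℝ)} {ρ : ℝ} {x : X} (hρ : 0 < ρ)
    (h : ∀ w : X, ‖w - x‖ < ρ → ∃ θ ∈ Θ, θ w = ‖w‖)
    (hnp : ¬ ∃ θ : X →L[ℝ] ℝ, IsPatch θ x) : ∃ θ₁ ∈ Θ, ∃ θ₂ ∈ Θ, θ₁ ≠ θ₂ := by
  by_contra hcon
  push_neg at hcon
  obtain ⟨θ, hθ, -⟩ := h x (by simpa using hρ)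
  refine hnp ⟨θ, ρ, hρ, fun w hw => ?_⟩
  obtain ⟨θ', hθ', he⟩ := h w hw
  rw [← he, hcon θ' hθ' θ hθ]

namespace ChartData

variable {f : X → Y} {x : X} {Θ : Finset (X →L[ℝ] ℝ)} {ρ : ℝ} {ψ : (X →L[ℝ] ℝ) → (Y →L[ℝ] ℝ)}
  {T : (X →L[ℝ] ℝ) → (X →ₗ[ℝ] Y)} {zz : (X →L[ℝ] ℝ) → X}

theorem le (C : ChartData f x Θ ρ ψ T zz) {θ : X →L[ℝ] ℝ} (hθ : θ ∈ Θ) (v : X) : θ v ≤ ‖v‖ :=
  (C.hp θ hθ).le_norm v

theorem T_x (C : ChartData f x Θ ρ ψ T zz) {θ : X →L[ℝ] ℝ} (hθ : θ ∈ Θ) : T θ x = f x :=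
  (C.hfT θ hθ x C.hx (C.hθx θ hθ)).symm

/-- Small vectors of the common kernel keep `x` on all the faces. -/
theorem unit_add (C : ChartData f x Θ ρ ψ T zz) {l : X} (hl : ∀ θ ∈ Θ, θ l = 0) (hlρ : ‖l‖ < ρ) :
    ‖x + l‖ = 1 := by
  obtain ⟨θ, hθ, he⟩ := C.hmax (x + l) (by rwa [add_sub_cancel_left])
  rw [← he, map_add, hl θ hθ, add_zero, C.hθx θ hθ]

/-- Convex combinations with `x` remain in the face. -/
theorem combo_x (C : ChartData f x Θ ρ ψ T zz) {θ : X →L[ℝ] ℝ} (hθ : θ ∈ Θ) {y : X} (hy : ‖y‖ = 1)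
    (hθy : θ y = 1) {s : ℝ} (hs0 : 0 ≤ s) (hs1 : s ≤ 1) :
    ‖(1 - s) • x + s • y‖ = 1 ∧ θ ((1 - s) • x + s • y) = 1 :=
  unit_of_combo (C.le hθ) C.hx hy (C.hθx θ hθ) hθy hs0 hs1

/-- `f` on a convex combination with `x`. -/
theorem f_combo (C : ChartData f x Θ ρ ψ T zz) {θ : X →L[ℝ] ℝ} (hθ : θ ∈ Θ) {y : X} (hy : ‖y‖ = 1)
    (hθy : θ y = 1) {s : ℝ} (hs0 : 0 ≤ s) (hs1 : s ≤ 1) :
    f ((1 - s) • x + s • y) = (1 - s) • f x + s • f y := by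
  obtain ⟨h1, h2⟩ := C.combo_x hθ hy hθy hs0 hs1
  rw [C.hfT θ hθ _ h1 h2, map_add, map_smul, map_smul, C.T_x hθ, ← C.hfT θ hθ y hy hθy]

/-- The chord identity with translations by the common kernel. -/
theorem chord_norm (C : ChartData f x Θ ρ ψ T zz) (hf : IsSphereIso f) {θ₁ θ₂ : X →L[ℝ] ℝ}
    (h₁ : θ₁ ∈ Θ) (h₂ : θ₂ ∈ Θ) {y₁ y₂ l₁ l₂ : X} (hy₁ : ‖y₁‖ = 1) (hy₂ : ‖y₂‖ = 1)
    (hθ₁ : θ₁ y₁ = 1) (hθ₂ : θ₂ y₂ = 1) (hl₁ : ∀ θ ∈ Θ, θ l₁ = 0) (hl₂ : ∀ θ ∈ Θ, θ l₂ = 0) :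
    ‖(y₁ - y₂) + (l₁ - l₂)‖ = ‖(f y₁ - f y₂) + (T θ₁ l₁ - T θ₂ l₂)‖ := by
  have hρ := C.hρ
  -- the scale
  obtain ⟨s, hs0, hs1, hsl₁, hsl₂⟩ : ∃ s : ℝ, 0 < s ∧ s ≤ 1 / 2 ∧ 2 * s * ‖l₁‖ < ρ ∧ 2 * s * ‖l₂‖ < ρ := by
    refine ⟨min (1 / 2) (ρ / (4 * (‖l₁‖ + ‖l₂‖ + 1))), lt_min (by norm_num) (by positivity),
      min_le_left _ _, ?_, ?_⟩
    · have h0 : 0 < ‖l₁‖ + ‖l₂‖ + 1 := by positivity
      have h3 : min (1 / 2) (ρ / (4 * (‖l₁‖ + ‖l₂‖ + 1))) ≤ ρ / (4 * (‖l₁‖ + ‖l₂‖ + 1)) :=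
        min_le_right _ _
      have h4 : ρ / (4 * (‖l₁‖ + ‖l₂‖ + 1)) * (‖l₁‖ + ‖l₂‖ + 1) = ρ / 4 := by field_simp
      have h5 := mul_le_mul_of_nonneg_right h3 h0.le
      have h6 : min (1 / 2) (ρ / (4 * (‖l₁‖ + ‖l₂‖ + 1))) * ‖l₁‖
          ≤ min (1 / 2) (ρ / (4 * (‖l₁‖ + ‖l₂‖ + 1))) * (‖l₁‖ + ‖l₂‖ + 1) := by
        apply mul_le_mul_of_nonneg_left
        · linarith [norm_nonneg l₂]
        · exact le_min (by norm_num) (by positivity)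
      linarith
    · have h0 : 0 < ‖l₁‖ + ‖l₂‖ + 1 := by positivity
      have h3 : min (1 / 2) (ρ / (4 * (‖l₁‖ + ‖l₂‖ + 1))) ≤ ρ / (4 * (‖l₁‖ + ‖l₂‖ + 1)) :=
        min_le_right _ _
      have h4 : ρ / (4 * (‖l₁‖ + ‖l₂‖ + 1)) * (‖l₁‖ + ‖l₂‖ + 1) = ρ / 4 := by field_simp
      have h5 := mul_le_mul_of_nonneg_right h3 h0.le
      have h6 : min (1 / 2) (ρ / (4 * (‖l₁‖ + ‖l₂‖ + 1))) * ‖l₂‖
          ≤ min (1 / 2) (ρ / (4 * (‖l₁‖ + ‖l₂‖ + 1))) * (‖l₁‖ + ‖l₂‖ + 1) := by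
        apply mul_le_mul_of_nonneg_left
        · linarith [norm_nonneg l₁]
        · exact le_min (by norm_num) (by positivity)
      linarith
  have hcs : 0 < 1 - s := by linarith
  -- generic step for one index
  have step : ∀ {θ : X →L[ℝ] ℝ} {y l : X}, θ ∈ Θ → ‖y‖ = 1 → θ y = 1 → (∀ θ' ∈ Θ, θ' l = 0) →
      2 * s * ‖l‖ < ρ →
      ‖(1 - s) • x + s • l + s • y‖ = 1 ∧
        f ((1 - s) • x + s • l + s • y) = (1 - s) • f x + s • T θ l + s • f y := by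
    intro θ y l hθ hy hθy hl hsl
    set c : ℝ := s / (1 - s) with hc
    have hcpos : 0 < c := div_pos hs0 hcs
    have hc2 : c ≤ 2 * s := by
      rw [hc, div_le_iff₀ hcs]
      nlinarith
    have hcl : ‖c • l‖ < ρ := by
      rw [norm_smul, Real.norm_of_nonneg hcpos.le]
      calc c * ‖l‖ ≤ 2 * s * ‖l‖ := mul_le_mul_of_nonneg_right hc2 (norm_nonneg l)
        _ < ρ := hsl
    have hcl0 : ∀ θ' ∈ Θ, θ' (c • l) = 0 := fun θ' h' => by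
      rw [map_smul, hl θ' h', smul_zero]
    have ha := C.unit_add hcl0 hcl
    have hθa : θ (x + c • l) = 1 := by rw [map_add, hcl0 θ hθ, add_zero, C.hθx θ hθ]
    have e : (1 - s) • x + s • l + s • y = (1 - s) • (x + c • l) + s • y := by
      rw [smul_add, smul_smul, hc]
      have : (1 - s) * (s / (1 - s)) = s := by field_simp
      rw [this]
    rw [e]
    obtain ⟨h1, h2⟩ := unit_of_combo (C.le hθ) ha hy hθa hθy hs0.le (by linarith)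
    refine ⟨h1, ?_⟩
    rw [C.hfT θ hθ _ h1 h2, map_add, map_smul, map_smul, map_add, map_smul, C.T_x hθ,
      ← C.hfT θ hθ y hy hθy, smul_add, smul_smul, hc]
    have : (1 - s) * (s / (1 - s)) = s := by field_simp
    rw [this]
  obtain ⟨hz₁, hfz₁⟩ := step h₁ hy₁ hθ₁ hl₁ hsl₁
  obtain ⟨hz₂, hfz₂⟩ := step h₂ hy₂ hθ₂ hl₂ hsl₂
  have hiso := hf.iso _ _ hz₁ hz₂
  have e1 : f ((1 - s) • x + s • l₁ + s • y₁) - f ((1 - s) • x + s • l₂ + s • y₂)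
      = s • ((f y₁ - f y₂) + (T θ₁ l₁ - T θ₂ l₂)) := by
    rw [hfz₁, hfz₂]
    simp only [smul_add, smul_sub]
    abel
  have e2 : ((1 - s) • x + s • l₁ + s • y₁) - ((1 - s) • x + s • l₂ + s • y₂)
      = s • ((y₁ - y₂) + (l₁ - l₂)) := by
    simp only [smul_add, smul_sub]
    abel
  rw [e1, e2, norm_smul, norm_smul, Real.norm_of_nonneg hs0.le] at hiso
  exact (mul_left_cancel₀ hs0.ne' hiso).symm

/-- On the common kernel all the linear maps agree. -/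
theorem T_eq_on_lin (C : ChartData f x Θ ρ ψ T zz) (hf : IsSphereIso f) {θ₁ θ₂ : X →L[ℝ] ℝ}
    (h₁ : θ₁ ∈ Θ) (h₂ : θ₂ ∈ Θ) {l : X} (hl : ∀ θ ∈ Θ, θ l = 0) : T θ₁ l = T θ₂ l := by
  have h := C.chord_norm hf h₁ h₂ C.hx C.hx (C.hθx θ₁ h₁) (C.hθx θ₂ h₂) hl hl
  simp only [sub_self, add_zero, zero_add, norm_zero] at h
  exact sub_eq_zero.mp (norm_eq_zero.mp h.symm)

/-- The image of a chord depends only on the chord. -/
theorem chord_eq (C : ChartData f x Θ ρ ψ T zz) (hf : IsSphereIso f)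
    {θ₁ θ₂ θ₃ θ₄ : X →L[ℝ] ℝ} (h₁ : θ₁ ∈ Θ) (h₂ : θ₂ ∈ Θ) (h₃ : θ₃ ∈ Θ) (h₄ : θ₄ ∈ Θ)
    {y₁ y₂ y₃ y₄ : X} (hy₁ : ‖y₁‖ = 1) (hy₂ : ‖y₂‖ = 1) (hy₃ : ‖y₃‖ = 1) (hy₄ : ‖y₄‖ = 1)
    (hθ₁ : θ₁ y₁ = 1) (hθ₂ : θ₂ y₂ = 1) (hθ₃ : θ₃ y₃ = 1) (hθ₄ : θ₄ y₄ = 1)
    (hsame : y₁ - y₂ = y₃ - y₄) : f y₁ - f y₂ = f y₃ - f y₄ := by
  set κ : Y := (f y₁ - f y₂) - (f y₃ - f y₄) with hκ
  -- every `ψ θ` kills `κ`
  have hψκ : ∀ θ ∈ Θ, ψ θ κ = 0 := by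
    intro θ hθ
    obtain ⟨r, hr, hst⟩ := C.hstar θ hθ
    obtain ⟨s, hs0, hs1, hsr⟩ : ∃ s : ℝ, 0 < s ∧ s ≤ 1 ∧ 2 * s < r :=
      ⟨min 1 (r / 4), lt_min one_pos (by positivity), min_le_left _ _, by
        have := min_le_right (1 : ℝ) (r / 4)
        linarith⟩
    have near : ∀ y : X, ‖y‖ = 1 → ‖((1 - s) • x + s • y) - x‖ < r := by
      intro y hy
      have e : ((1 - s) • x + s • y) - x = s • (y - x) := by
        simp only [smul_sub, sub_smul, one_smul]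
        abel
      rw [e, norm_smul, Real.norm_of_nonneg hs0.le]
      have h3 : ‖y - x‖ ≤ 2 := by
        calc ‖y - x‖ ≤ ‖y‖ + ‖x‖ := norm_sub_le _ _
          _ = 2 := by rw [hy, C.hx]; norm_num
      nlinarith
    have val : ∀ {θ' : X →L[ℝ] ℝ} {y : X}, θ' ∈ Θ → ‖y‖ = 1 → θ' y = 1 →
        (1 - s) * ψ θ (f x) + s * ψ θ (f y) = (1 - s) * θ x + s * θ y := by
      intro θ' y h' hy hθ'y
      obtain ⟨hu, -⟩ := C.combo_x h' hy hθ'y hs0.le hs1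
      have h3 := hst _ hu (near y hy)
      rw [C.f_combo h' hy hθ'y hs0.le hs1, map_add, map_smul, map_smul, map_add, map_smul,
        map_smul] at h3
      simpa [smul_eq_mul] using h3
    have v1 := val h₁ hy₁ hθ₁
    have v2 := val h₂ hy₂ hθ₂
    have v3 := val h₃ hy₃ hθ₃
    have v4 := val h₄ hy₄ hθ₄
    have e4 : θ y₁ - θ y₂ = θ y₃ - θ y₄ := by rw [← map_sub, ← map_sub, hsame]
    have e5 : s * ψ θ κ = 0 := by
      rw [hκ, map_sub, map_sub, map_sub]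
      have e6 : s * (θ y₁ - θ y₂) = s * (θ y₃ - θ y₄) := by rw [e4]
      linarith
    exact (mul_eq_zero.mp e5).resolve_left hs0.ne'
  -- `κ = T θ₁ η`
  obtain ⟨η, hη1, hηκ⟩ := C.honto θ₁ h₁ κ (hψκ θ₁ h₁)
  -- `η` is in the common kernel
  have hηlin : ∀ θ ∈ Θ, θ η = 0 := by
    intro θ hθ
    obtain ⟨r, hr, hst⟩ := C.hstar θ hθ
    have hz := C.hz θ₁ h₁
    obtain ⟨r', hr', hker⟩ := (C.hp θ₁ h₁).exists_ker hz
    obtain ⟨t, ht0, htr⟩ : ∃ t : ℝ, 0 < t ∧ t * ‖η‖ < r' := by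
      refine ⟨r' / (2 * (‖η‖ + 1)), by positivity, ?_⟩
      have h0 : 0 < ‖η‖ + 1 := by positivity
      have h3 : r' / (2 * (‖η‖ + 1)) * (‖η‖ + 1) = r' / 2 := by field_simp
      have h4 : r' / (2 * (‖η‖ + 1)) * ‖η‖ ≤ r' / (2 * (‖η‖ + 1)) * (‖η‖ + 1) := by
        apply mul_le_mul_of_nonneg_left
        · linarith
        · positivity
      linarith
    have hk0 : θ₁ (t • η) = 0 := by rw [map_smul, hη1, smul_zero]
    obtain ⟨hk1, hk2⟩ := hker (t • η) hk0 (by rwa [norm_smul, Real.norm_of_nonneg ht0.le])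
    set z := zz θ₁ with hzdef
    have hθz : θ₁ z = 1 := by
      have := (C.hp θ₁ h₁).apply_eq
      rwa [hz] at this
    obtain ⟨s, hs0, hs1, hsr⟩ : ∃ s : ℝ, 0 < s ∧ s ≤ 1 ∧ 2 * s < r :=
      ⟨min 1 (r / 4), lt_min one_pos (by positivity), min_le_left _ _, by
        have := min_le_right (1 : ℝ) (r / 4)
        linarith⟩
    have near : ∀ y : X, ‖y‖ = 1 → ‖((1 - s) • x + s • y) - x‖ < r := by
      intro y hy
      have e : ((1 - s) • x + s • y) - x = s • (y - x) := by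
        simp only [smul_sub, sub_smul, one_smul]
        abel
      rw [e, norm_smul, Real.norm_of_nonneg hs0.le]
      have h3 : ‖y - x‖ ≤ 2 := by
        calc ‖y - x‖ ≤ ‖y‖ + ‖x‖ := norm_sub_le _ _
          _ = 2 := by rw [hy, C.hx]; norm_num
      nlinarith
    obtain ⟨hu0, hv0⟩ := C.combo_x h₁ hz hθz hs0.le hs1
    obtain ⟨hu1, hv1⟩ := C.combo_x h₁ hk1 hk2 hs0.le hs1
    have a0 := hst _ hu0 (near z hz)
    have a1 := hst _ hu1 (near _ hk1)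
    have e7 : f ((1 - s) • x + s • (z + t • η)) - f ((1 - s) • x + s • z) = (s * t) • κ := by
      rw [C.hfT θ₁ h₁ _ hu1 hv1, C.hfT θ₁ h₁ _ hu0 hv0, ← map_sub, ← hηκ]
      have : ((1 - s) • x + s • (z + t • η)) - ((1 - s) • x + s • z) = (s * t) • η := by
        simp only [smul_add, smul_smul]
        abel
      rw [this, map_smul]
    have e8 : ψ θ ((s * t) • κ) = θ ((s * t) • η) := by
      rw [← e7, map_sub, a1, a0, ← map_sub]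
      congr 1
      simp only [smul_add, smul_smul]
      abel
    rw [map_smul, map_smul, hψκ θ hθ, smul_zero, smul_eq_mul] at e8
    have hst0 : s * t ≠ 0 := mul_ne_zero hs0.ne' ht0.ne'
    exact ((mul_eq_zero.mp e8.symm).resolve_left hst0)
  -- periodicity
  set W : Y := f y₃ - f y₄ with hW
  have hper : ∀ l : X, (∀ θ ∈ Θ, θ l = 0) → ‖W + T θ₁ (l + η)‖ = ‖W + T θ₁ l‖ := by
    intro l hl
    have a1 := C.chord_norm hf h₁ h₂ hy₁ hy₂ hθ₁ hθ₂ hl (fun θ _ => map_zero θ)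
    have a2 := C.chord_norm hf h₃ h₄ hy₃ hy₄ hθ₃ hθ₄ hl (fun θ _ => map_zero θ)
    rw [hsame] at a1
    rw [C.T_eq_on_lin hf h₃ h₁ hl] at a2
    simp only [sub_zero, map_zero] at a1 a2
    rw [← a2, a1, map_add, hηκ, hκ]
    congr 1
    rw [hW]
    abel
  have hlinn : ∀ n : ℕ, ∀ θ ∈ Θ, θ ((n : ℝ) • η) = 0 := fun n θ hθ => by
    rw [map_smul, hηlin θ hθ, smul_zero]
  have hpern : ∀ n : ℕ, ‖W + T θ₁ ((n : ℝ) • η)‖ = ‖W‖ := by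
    intro n
    induction n with
    | zero => simp
    | succ n ih =>
      have e : ((n + 1 : ℕ) : ℝ) • η = (n : ℝ) • η + η := by
        push_cast
        rw [add_smul, one_smul]
      rw [e, hper _ (hlinn n), ih]
  have hbd : ∀ n : ℕ, (n : ℝ) * ‖η‖ ≤ 2 * ‖W‖ := by
    intro n
    have h1 : ‖T θ₁ ((n : ℝ) • η)‖ = (n : ℝ) * ‖η‖ := by
      rw [C.hiso θ₁ h₁ _ (hlinn n θ₁ h₁), norm_smul, Real.norm_of_nonneg (Nat.cast_nonneg n)]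
    have h2 : ‖T θ₁ ((n : ℝ) • η)‖ ≤ ‖W + T θ₁ ((n : ℝ) • η)‖ + ‖W‖ := by
      have : T θ₁ ((n : ℝ) • η) = (W + T θ₁ ((n : ℝ) • η)) - W := by abel
      calc ‖T θ₁ ((n : ℝ) • η)‖ = ‖(W + T θ₁ ((n : ℝ) • η)) - W‖ := by rw [← this]
        _ ≤ _ := norm_sub_le _ _
    rw [h1, hpern n] at h2
    linarith
  have hη0 : η = 0 := by
    by_contra hne
    have hpos : 0 < ‖η‖ := norm_pos_iff.mpr hne
    obtain ⟨n, hn⟩ := exists_nat_gt (2 * ‖W‖ / ‖η‖)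
    have := hbd n
    rw [div_lt_iff₀ hpos] at hn
    linarith
  have hκ0 : κ = 0 := by rw [← hηκ, hη0, map_zero]
  exact sub_eq_zero.mp hκ0

end ChartData

/-- Near a unit vector that is not a patch point, `f` is the restriction of an affine map. -/
theorem exists_local (hX : LocFinPoly X) {f : X → Y} (hf : IsSphereIso f) {x : X} (hx : ‖x‖ = 1)
    (hnp : ¬ ∃ θ : X →L[ℝ] ℝ, IsPatch θ x) :
    ∃ (Φ : X →ₗ[ℝ] Y) (ρ : ℝ), 0 < ρ ∧ ∀ y : X, ‖y‖ = 1 → ‖y - x‖ < ρ → f y = Φ y + (f x - Φ x) := by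
  obtain ⟨Θ, ρ, ψ, T, zz, C⟩ := exists_chartData hX hf hx
  obtain ⟨θ₁, h₁, θ₂, h₂, hne⟩ := two_of_not_patch C.hρ C.hmax hnp
  obtain ⟨e₀, he1, he2⟩ := exists_e0 hne (C.hθx θ₁ h₁) (C.hθx θ₂ h₂)
  -- the linear map
  let Φ : X →ₗ[ℝ] Y := (T θ₂).comp (LinearMap.id - (θ₂ : X →ₗ[ℝ] ℝ).smulRight e₀)
    + (θ₂ : X →ₗ[ℝ] ℝ).smulRight (T θ₁ e₀)
  have hΦ : ∀ v, Φ v = T θ₂ (v - θ₂ v • e₀) + θ₂ v • T θ₁ e₀ := fun v => rfl
  have hz₁ := C.hz θ₁ h₁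
  have hz₂ := C.hz θ₂ h₂
  have hp₁ := C.hp θ₁ h₁
  have hp₂ := C.hp θ₂ h₂
  have hθz₁ : θ₁ (zz θ₁) = 1 := by
    have := hp₁.apply_eq
    rwa [hz₁] at this
  have hθz₂ : θ₂ (zz θ₂) = 1 := by
    have := hp₂.apply_eq
    rwa [hz₂] at this
  -- agreement on the intersection of the two kernels
  have agree : ∀ h : X, θ₁ h = 0 → θ₂ h = 0 → T θ₁ h = T θ₂ h := by
    intro h h1 h2
    obtain ⟨r₁, hr₁, hk₁⟩ := hp₁.exists_ker hz₁
    obtain ⟨r₂, hr₂, hk₂⟩ := hp₂.exists_ker hz₂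
    obtain ⟨t, ht0, ht1, ht2⟩ : ∃ t : ℝ, 0 < t ∧ t * ‖h‖ < r₁ ∧ t * ‖h‖ < r₂ := by
      set r := min r₁ r₂ with hr
      have hrpos : 0 < r := lt_min hr₁ hr₂
      have h0 : 0 < ‖h‖ + 1 := by positivity
      have h3 : r / (2 * (‖h‖ + 1)) * (‖h‖ + 1) = r / 2 := by field_simp
      have h4 : r / (2 * (‖h‖ + 1)) * ‖h‖ ≤ r / (2 * (‖h‖ + 1)) * (‖h‖ + 1) := by
        apply mul_le_mul_of_nonneg_left
        · linarith
        · positivity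
      have h5 : r ≤ r₁ := min_le_left _ _
      have h6 : r ≤ r₂ := min_le_right _ _
      exact ⟨r / (2 * (‖h‖ + 1)), by positivity, by linarith, by linarith⟩
    have h1t : θ₁ (t • h) = 0 := by rw [map_smul, h1, smul_zero]
    have h2t : θ₂ (t • h) = 0 := by rw [map_smul, h2, smul_zero]
    have ntt : ‖t • h‖ = t * ‖h‖ := by rw [norm_smul, Real.norm_of_nonneg ht0.le]
    obtain ⟨a1, a2⟩ := hk₁ (t • h) h1t (by rwa [ntt])
    obtain ⟨b1, b2⟩ := hk₂ (t • h) h2t (by rwa [ntt])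
    have := C.chord_eq hf h₁ h₁ h₂ h₂ a1 hz₁ b1 hz₂ a2 hθz₁ b2 hθz₂ (by abel)
    rw [C.hfT θ₁ h₁ _ a1 a2, C.hfT θ₁ h₁ _ hz₁ hθz₁, C.hfT θ₂ h₂ _ b1 b2, C.hfT θ₂ h₂ _ hz₂ hθz₂,
      ← map_sub, ← map_sub, add_sub_cancel_left, add_sub_cancel_left, map_smul, map_smul] at this
    exact smul_right_injective Y ht0.ne' this
  have hΦ₂ : ∀ k, θ₂ k = 0 → Φ k = T θ₂ k := by
    intro k hk
    rw [hΦ, hk]
    simp
  have hΦ₁ : ∀ k, θ₁ k = 0 → Φ k = T θ₁ k := by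
    intro k hk
    have h1 : θ₁ (k - θ₂ k • e₀) = 0 := by
      rw [map_sub, map_smul, hk, he1]
      simp
    have h2 : θ₂ (k - θ₂ k • e₀) = 0 := by
      rw [map_sub, map_smul, he2]
      simp
    rw [hΦ, ← agree _ h1 h2, map_sub, map_smul]
    abel
  -- the other functionals
  have hΦ₃ : ∀ θ ∈ Θ, ∀ k, θ k = 0 → Φ k = T θ k := by
    intro θ hθ k hk
    by_cases h1 : θ = θ₁
    · rw [h1] at hk ⊢
      exact hΦ₁ k hk
    by_cases h2 : θ = θ₂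
    · rw [h2] at hk ⊢
      exact hΦ₂ k hk
    have hz₃ := C.hz θ hθ
    have hp₃ := C.hp θ hθ
    have hθz₃ : θ (zz θ) = 1 := by
      have := hp₃.apply_eq
      rwa [hz₃] at this
    -- differences of points of the two faces
    have diff : ∀ p₁ p₂ : X, ‖p₁‖ = 1 → ‖p₂‖ = 1 → θ₁ p₁ = 1 → θ₂ p₂ = 1 → θ (p₁ - p₂) = 0 →
        Φ (p₁ - p₂) = T θ (p₁ - p₂) := by
      intro p₁ p₂ hp1 hp2 hv1 hv2 hu
      obtain ⟨r, hr, hker⟩ := hp₃.exists_ker hz₃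
      set u := p₁ - p₂ with hudef
      obtain ⟨σ, hσ0, hσ1, hσr⟩ : ∃ σ : ℝ, 0 < σ ∧ σ ≤ 1 ∧ σ * ‖u‖ < r := by
        refine ⟨min 1 (r / (2 * (‖u‖ + 1))), lt_min one_pos (by positivity), min_le_left _ _, ?_⟩
        have h0 : 0 < ‖u‖ + 1 := by positivity
        have h3 : r / (2 * (‖u‖ + 1)) * (‖u‖ + 1) = r / 2 := by field_simp
        have h4 : r / (2 * (‖u‖ + 1)) * ‖u‖ ≤ r / (2 * (‖u‖ + 1)) * (‖u‖ + 1) := by
          apply mul_le_mul_of_nonneg_left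
          · linarith
          · positivity
        have h5 : min 1 (r / (2 * (‖u‖ + 1))) * ‖u‖ ≤ r / (2 * (‖u‖ + 1)) * ‖u‖ :=
          mul_le_mul_of_nonneg_right (min_le_right _ _) (norm_nonneg u)
        linarith
      obtain ⟨a1, a2⟩ := C.combo_x h₁ hp1 hv1 hσ0.le hσ1
      obtain ⟨b1, b2⟩ := C.combo_x h₂ hp2 hv2 hσ0.le hσ1
      have hk0 : θ (-(σ • u)) = 0 := by rw [map_neg, map_smul, hu]; simp
      obtain ⟨c1, c2⟩ := hker (-(σ • u)) hk0 (by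
        rw [norm_neg, norm_smul, Real.norm_of_nonneg hσ0.le]
        exact hσr)
      have chord := C.chord_eq hf h₁ h₂ hθ hθ a1 b1 hz₃ c1 a2 b2 hθz₃ c2 (by
        rw [hudef]
        simp only [smul_sub, smul_add]
        abel)
      rw [C.f_combo h₁ hp1 hv1 hσ0.le hσ1, C.f_combo h₂ hp2 hv2 hσ0.le hσ1,
        C.hfT θ hθ _ hz₃ hθz₃, C.hfT θ hθ _ c1 c2, ← map_sub] at chord
      have e1 : zz θ - (zz θ + -(σ • u)) = σ • u := by abel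
      rw [e1, map_smul] at chord
      -- the left side in terms of `Φ`
      have hΦp₁ : T θ₁ (p₁ - x) = Φ (p₁ - x) := by
        rw [hΦ₁]
        rw [map_sub, hv1, C.hθx θ₁ h₁, sub_self]
      have hΦp₂ : T θ₂ (p₂ - x) = Φ (p₂ - x) := by
        rw [hΦ₂]
        rw [map_sub, hv2, C.hθx θ₂ h₂, sub_self]
      have f1 : f p₁ = f x + Φ (p₁ - x) := by
        rw [← hΦp₁, map_sub, ← C.hfT θ₁ h₁ p₁ hp1 hv1, C.T_x h₁]
        abel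
      have f2 : f p₂ = f x + Φ (p₂ - x) := by
        rw [← hΦp₂, map_sub, ← C.hfT θ₂ h₂ p₂ hp2 hv2, C.T_x h₂]
        abel
      have e2 : ((1 - σ) • f x + σ • f p₁) - ((1 - σ) • f x + σ • f p₂) = σ • Φ u := by
        rw [f1, f2, hudef]
        have : Φ (p₁ - p₂) = Φ (p₁ - x) - Φ (p₂ - x) := by
          rw [← map_sub]
          congr 1
          abel
        rw [this]
        simp only [smul_add, smul_sub]
        abel
      rw [e2] at chord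
      exact smul_right_injective Y hσ0.ne' chord
    -- the values of `θ` on the two patch points
    have hθle : ∀ v, θ v ≤ ‖v‖ := C.le hθ
    have ha₁ : θ (zz θ₁) < 1 := by
      have h3 := hθle (zz θ₁)
      rw [hz₁] at h3
      refine lt_of_le_of_ne h3 fun he => h1 ?_
      exact hp₁.unique hθle (by rw [he, hz₁])
    have ha₂ : θ (zz θ₂) < 1 := by
      have h3 := hθle (zz θ₂)
      rw [hz₂] at h3
      refine lt_of_le_of_ne h3 fun he => h2 ?_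
      exact hp₂.unique hθle (by rw [he, hz₂])
    set α₁ : ℝ := 1 - θ (zz θ₁) with hα₁
    set α₂ : ℝ := 1 - θ (zz θ₂) with hα₂
    have hα₁0 : 0 < α₁ := by rw [hα₁]; linarith
    have hα₂0 : 0 < α₂ := by rw [hα₂]; linarith
    set μ₁ : ℝ := α₂ / (α₁ + α₂) with hμ₁
    set μ₂ : ℝ := α₁ / (α₁ + α₂) with hμ₂
    have hμ₁0 : 0 < μ₁ := by rw [hμ₁]; positivity
    have hμ₂0 : 0 < μ₂ := by rw [hμ₂]; positivity
    have hμ₁1 : μ₁ ≤ 1 := by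
      rw [hμ₁, div_le_one (by positivity)]
      linarith
    have hμ₂1 : μ₂ ≤ 1 := by
      rw [hμ₂, div_le_one (by positivity)]
      linarith
    have hμeq : μ₁ * α₁ = μ₂ * α₂ := by
      rw [hμ₁, hμ₂]
      field_simp
    -- base points
    set q₁ : X := (1 - μ₁) • x + μ₁ • zz θ₁ with hq₁
    set q₂ : X := (1 - μ₂) • x + μ₂ • zz θ₂ with hq₂
    obtain ⟨hq₁n, hq₁v⟩ := C.combo_x h₁ hz₁ hθz₁ hμ₁0.le hμ₁1
    obtain ⟨hq₂n, hq₂v⟩ := C.combo_x h₂ hz₂ hθz₂ hμ₂0.le hμ₂1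
    have hq₁p : IsPatch θ₁ q₁ := by
      have := hp₁.combo (x := x) (by rw [C.hθx θ₁ h₁, C.hx]) hμ₁0 (by linarith : (0 : ℝ) ≤ 1 - μ₁)
      rwa [add_comm] at this
    have hq₂p : IsPatch θ₂ q₂ := by
      have := hp₂.combo (x := x) (by rw [C.hθx θ₂ h₂, C.hx]) hμ₂0 (by linarith : (0 : ℝ) ≤ 1 - μ₂)
      rwa [add_comm] at this
    have hθq : θ (q₁ - q₂) = 0 := by
      rw [hq₁, hq₂, map_sub, map_add, map_add, map_smul, map_smul, map_smul, map_smul, C.hθx θ hθ]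
      simp only [smul_eq_mul, mul_one]
      have e1 : θ (zz θ₁) = 1 - α₁ := by rw [hα₁]; ring
      have e2 : θ (zz θ₂) = 1 - α₂ := by rw [hα₂]; ring
      rw [e1, e2]
      linear_combination (-1 : ℝ) * hμeq
    have base := diff q₁ q₂ hq₁n hq₂n hq₁v hq₂v hθq
    -- perturbation
    obtain ⟨r₁, hr₁, hk₁⟩ := hq₁p.exists_ker hq₁n
    obtain ⟨r₂, hr₂, hk₂⟩ := hq₂p.exists_ker hq₂n
    set k₁ : X := θ₂ k • e₀ with hk₁def
    set k₂ : X := k - k₁ with hk₂def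
    have hk₁0 : θ₁ k₁ = 0 := by rw [hk₁def, map_smul, he1, smul_zero]
    have hk₂0 : θ₂ k₂ = 0 := by
      rw [hk₂def, map_sub, hk₁def, map_smul, he2]
      simp
    obtain ⟨t, ht0, ht1, ht2⟩ : ∃ t : ℝ, 0 < t ∧ t * ‖k₁‖ < r₁ ∧ t * ‖k₂‖ < r₂ := by
      set r := min r₁ r₂ with hr
      have hrpos : 0 < r := lt_min hr₁ hr₂
      have h5 : r ≤ r₁ := min_le_left _ _
      have h6 : r ≤ r₂ := min_le_right _ _
      have h0 : 0 < ‖k₁‖ + ‖k₂‖ + 1 := by positivity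
      have h3 : r / (2 * (‖k₁‖ + ‖k₂‖ + 1)) * (‖k₁‖ + ‖k₂‖ + 1) = r / 2 := by field_simp
      have h4 : r / (2 * (‖k₁‖ + ‖k₂‖ + 1)) * ‖k₁‖
          ≤ r / (2 * (‖k₁‖ + ‖k₂‖ + 1)) * (‖k₁‖ + ‖k₂‖ + 1) := by
        apply mul_le_mul_of_nonneg_left
        · linarith [norm_nonneg k₂]
        · positivity
      have h4' : r / (2 * (‖k₁‖ + ‖k₂‖ + 1)) * ‖k₂‖
          ≤ r / (2 * (‖k₁‖ + ‖k₂‖ + 1)) * (‖k₁‖ + ‖k₂‖ + 1) := by
        apply mul_le_mul_of_nonneg_left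
        · linarith [norm_nonneg k₁]
        · positivity
      exact ⟨r / (2 * (‖k₁‖ + ‖k₂‖ + 1)), by positivity, by linarith, by linarith⟩
    have ht1' : θ₁ (t • k₁) = 0 := by rw [map_smul, hk₁0, smul_zero]
    have ht2' : θ₂ (-(t • k₂)) = 0 := by rw [map_neg, map_smul, hk₂0]; simp
    obtain ⟨a1, a2⟩ := hk₁ (t • k₁) ht1' (by rwa [norm_smul, Real.norm_of_nonneg ht0.le])
    obtain ⟨b1, b2⟩ := hk₂ (-(t • k₂)) ht2' (by
      rwa [norm_neg, norm_smul, Real.norm_of_nonneg ht0.le])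
    have e1 : (q₁ + t • k₁) - (q₂ + -(t • k₂)) = (q₁ - q₂) + t • k := by
      have : k = k₁ + k₂ := by rw [hk₂def]; abel
      rw [this, smul_add]
      abel
    have hθp : θ ((q₁ + t • k₁) - (q₂ + -(t • k₂))) = 0 := by
      rw [e1, map_add, hθq, map_smul, hk]
      simp
    have pert := diff _ _ a1 b1 a2 b2 hθp
    rw [e1, map_add, map_add, base, map_smul, map_smul] at pert
    exact smul_right_injective Y ht0.ne' (add_left_cancel pert)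
  refine ⟨Φ, ρ, C.hρ, fun y hy hyx => ?_⟩
  obtain ⟨θ, hθ, he⟩ := C.hmax y hyx
  have hθy : θ y = 1 := by rw [he, hy]
  have h0 : θ (y - x) = 0 := by rw [map_sub, hθy, C.hθx θ hθ, sub_self]
  have h1 := hΦ₃ θ hθ (y - x) h0
  rw [map_sub, map_sub, C.T_x hθ, ← C.hfT θ hθ y hy hθy] at h1
  rw [sub_eq_iff_eq_add] at h1
  rw [h1]
  abel

/-- Uniqueness: an affine map vanishing on the sphere near a non-patch unit vector vanishes. -/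
theorem local_unique (hX : LocFinPoly X) {x : X} (hx : ‖x‖ = 1)
    (hnp : ¬ ∃ θ : X →L[ℝ] ℝ, IsPatch θ x) {Φ : X →ₗ[ℝ] Y} {c : Y} {ρ : ℝ} (hρ : 0 < ρ)
    (h : ∀ y : X, ‖y‖ = 1 → ‖y - x‖ < ρ → Φ y + c = 0) : Φ = 0 ∧ c = 0 := by
  obtain ⟨Θ, ρ₀, hρ₀, h1, h2⟩ := exists_chart hX hx
  obtain ⟨θ₁, h₁, θ₂, h₂, hne⟩ := two_of_not_patch hρ₀ h2 hnp
  -- vanishing on one kernel
  have kerzero : ∀ θ ∈ Θ, ∀ k : X, θ k = 0 → Φ k = 0 := by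
    intro θ hθ k hk
    obtain ⟨hθx, z, hz, hp⟩ := h1 θ hθ
    have hle := hp.le_norm
    have hθz : θ z = 1 := by
      have := hp.apply_eq
      rwa [hz] at this
    -- a patch point near `x`
    set s : ℝ := min 1 (ρ / 8) with hs
    have hs0 : 0 < s := lt_min one_pos (by positivity)
    have hs1 : s ≤ 1 := min_le_left _ _
    have hs2 : s ≤ ρ / 8 := min_le_right _ _
    set w : X := (1 - s) • x + s • z with hw
    have hwn : ‖w‖ = 1 ∧ θ w = 1 := unit_of_combo hle hx hz hθx hθz hs0.le hs1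
    have hwp : IsPatch θ w := by
      have := hp.combo (x := x) (by rw [hθx, hx]) hs0 (by linarith : (0 : ℝ) ≤ 1 - s)
      rwa [add_comm] at this
    obtain ⟨r, hr, hker⟩ := hwp.exists_ker hwn.1
    have hwx : ‖w - x‖ ≤ ρ / 4 := by
      have e : w - x = s • (z - x) := by
        rw [hw]
        simp only [smul_sub, sub_smul, one_smul]
        abel
      rw [e, norm_smul, Real.norm_of_nonneg hs0.le]
      have h3 : ‖z - x‖ ≤ 2 := by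
        calc ‖z - x‖ ≤ ‖z‖ + ‖x‖ := norm_sub_le _ _
          _ = 2 := by rw [hz, hx]; norm_num
      nlinarith
    obtain ⟨t, ht0, ht1, ht2⟩ : ∃ t : ℝ, 0 < t ∧ t * ‖k‖ < r ∧ t * ‖k‖ < ρ / 2 := by
      set q := min r (ρ / 2) with hq
      have hqpos : 0 < q := lt_min hr (by positivity)
      have h5 : q ≤ r := min_le_left _ _
      have h6 : q ≤ ρ / 2 := min_le_right _ _
      have h0 : 0 < ‖k‖ + 1 := by positivity
      have h3 : q / (2 * (‖k‖ + 1)) * (‖k‖ + 1) = q / 2 := by field_simp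
      have h4 : q / (2 * (‖k‖ + 1)) * ‖k‖ ≤ q / (2 * (‖k‖ + 1)) * (‖k‖ + 1) := by
        apply mul_le_mul_of_nonneg_left
        · linarith
        · positivity
      exact ⟨q / (2 * (‖k‖ + 1)), by positivity, by linarith, by linarith⟩
    have hk0 : θ (t • k) = 0 := by rw [map_smul, hk, smul_zero]
    have ntk : ‖t • k‖ = t * ‖k‖ := by rw [norm_smul, Real.norm_of_nonneg ht0.le]
    obtain ⟨a1, -⟩ := hker (t • k) hk0 (by rwa [ntk])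
    have v0 := h w hwn.1 (by linarith)
    have v1 := h (w + t • k) a1 (by
      have e : w + t • k - x = (w - x) + t • k := by abel
      rw [e]
      calc ‖(w - x) + t • k‖ ≤ ‖w - x‖ + ‖t • k‖ := norm_add_le _ _
        _ < ρ := by rw [ntk]; linarith)
    rw [map_add, map_smul] at v1
    have v2 : t • Φ k = 0 := by
      have : Φ w + t • Φ k + c = Φ w + c + t • Φ k := by abel
      rw [this, v0, zero_add] at v1
      exact v1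
    exact (smul_eq_zero.mp v2).resolve_left ht0.ne'
  obtain ⟨e₀, he1, he2⟩ := exists_e0 hne (h1 θ₁ h₁).1 (h1 θ₂ h₂).1
  have hΦ : Φ = 0 := by
    ext v
    have a1 : Φ (v - θ₂ v • e₀) = 0 := kerzero θ₂ h₂ _ (by
      rw [map_sub, map_smul, he2]
      simp)
    have a2 : Φ e₀ = 0 := kerzero θ₁ h₁ _ he1
    have : v = (v - θ₂ v • e₀) + θ₂ v • e₀ := by abel
    rw [this, map_add, map_smul, a1, a2]
    simp
  refine ⟨hΦ, ?_⟩
  have := h x hx (by simpa using hρ)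
  rwa [hΦ, LinearMap.zero_apply, zero_add] at this

/-- Near a unit vector, every patch point has its functional with value one at `x`: if `x` is not a
patch point it lies on the boundary of the facet of that functional. -/
theorem exists_radius_patch (hX : LocFinPoly X) {x : X} (hx : ‖x‖ = 1) :
    ∃ ρ : ℝ, 0 < ρ ∧ ∀ (y : X) (θ : X →L[ℝ] ℝ), ‖y - x‖ < ρ → IsPatch θ y → θ x = 1 := by
  obtain ⟨Θ, ρ, hρ, h1, h2⟩ := exists_chart hX hx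
  refine ⟨ρ, hρ, fun y θ hy hθ => ?_⟩
  obtain ⟨χ, hχ, hχy⟩ := h2 y hy
  obtain ⟨hχx, z, hz, hχz⟩ := h1 χ hχ
  have : χ = θ := hθ.unique hχz.le_norm hχy
  rw [← this]
  exact hχx

end Vale.Agent.Lib.P084.LFP
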