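/-
Locally finitely polyhedral spaces have the Mazur-Ulam property.
-/
import Vale.Agent.Lib.P084.LFP.Local
import Vale.Agent.Lib.P084.LFP.Boundary
import Vale.Agent.Lib.P084.RNP.Top

namespace Vale.Agent.Lib.P084.LFP

open Vale.Agent.Lib.P084.UC Vale.Agent.Lib.P084.Inf Vale.Agent.Lib.P084.RNP
open Metric

universe u v

variable {X : Type u} {Y : Type v} [NormedAddCommGroup X] [NormedSpace ℝ X] [NormedAddCommGroup Y]
  [NormedSpace ℝ Y]

/-- A map that is locally constant on a preconnected set is constant on it. -/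
theorem const_of_local {Z : Type*} [NormedAddCommGroup Z] {S : Set Z} (hS : IsPreconnected S)
    {α : Type*} (col : Z → α) (r : Z → ℝ) (hr : ∀ y ∈ S, 0 < r y)
    (h : ∀ y ∈ S, ∀ w ∈ S, ‖w - y‖ < r y → col w = col y) :
    ∀ a ∈ S, ∀ b ∈ S, col a = col b := by
  intro a ha b hb
  by_contra hne
  let U : Set Z := ⋃ y ∈ {y ∈ S | col y = col a}, Metric.ball y (r y)
  let V : Set Z := ⋃ y ∈ {y ∈ S | col y ≠ col a}, Metric.ball y (r y)
  have hU : IsOpen U := isOpen_biUnion fun _ _ => Metric.isOpen_ball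
  have hV : IsOpen V := isOpen_biUnion fun _ _ => Metric.isOpen_ball
  have hcov : S ⊆ U ∪ V := by
    intro y hy
    by_cases hc : col y = col a
    · left
      exact Set.mem_biUnion (show y ∈ {y ∈ S | col y = col a} from ⟨hy, hc⟩)
        (Metric.mem_ball_self (hr y hy))
    · right
      exact Set.mem_biUnion (show y ∈ {y ∈ S | col y ≠ col a} from ⟨hy, hc⟩)
        (Metric.mem_ball_self (hr y hy))
  have hSU : (S ∩ U).Nonempty :=
    ⟨a, ha, Set.mem_biUnion (show a ∈ {y ∈ S | col y = col a} from ⟨ha, rfl⟩)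
      (Metric.mem_ball_self (hr a ha))⟩
  have hSV : (S ∩ V).Nonempty :=
    ⟨b, hb, Set.mem_biUnion (show b ∈ {y ∈ S | col y ≠ col a} from ⟨hb, fun e => hne e.symm⟩)
      (Metric.mem_ball_self (hr b hb))⟩
  obtain ⟨w, hwS, hwU, hwV⟩ := hS U V hU hV hcov hSU hSV
  obtain ⟨y, hy, hyb⟩ := Set.mem_iUnion₂.mp hwU
  obtain ⟨y', hy', hyb'⟩ := Set.mem_iUnion₂.mp hwV
  have e1 := h y hy.1 w hwS (by simpa [dist_eq_norm] using hyb)
  have e2 := h y' hy'.1 w hwS (by simpa [dist_eq_norm] using hyb')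
  exact hy'.2 (e2.symm.trans (e1.trans hy.2))

theorem one_lt_rank (hrank : (3 : Cardinal) ≤ Module.rank ℝ X) : 1 < Module.rank ℝ X :=
  lt_of_lt_of_le (by norm_cast) hrank

/-- `f` coincides with one affine map on the whole sphere.

Paper proof. `LocEq (Φ, c) y := ∃ ρ > 0, ∀ w unit, ‖w - y‖ < ρ → f w = Φ w + c`. By `exists_local` every non-patch unit vector has one such
pair, by `local_unique` (applied to `Φ - Φ'`, `c - c'`) exactly one; if `LocEq` holds at `y` it holds at all unit vectors near `y`.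
(a) For a facet `θ` (has a patch point) `Bd θ` consists of non-patch points (`not_patch_of_mem_Bd`) and is connected (`bd_connected`); by
the preconnectedness definition with the open sets `u := ⋃ ball(b, ρ_b)` over `b` with pair `(Φ, c)`, `v :=` the same over the other `b`:
all `b ∈ Bd θ` have one pair, call it `col θ`. (b) Colour of unit `y`: its pair if non-patch, `col θ` if `IsPatch θ y`. Radii: non-patch `y`:
min of the `LocEq` radius and `exists_radius_patch`; patch `y`: the patch radius (nearby unit vectors are patch points of the same `θ`: `IsPatch.exists_ker`, `θ w = ‖w‖ = 1`,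
radius shift). Claim: `w` unit in `ball(y, r y)` has the colour of `y`: `y` non-patch, `w` non-patch: uniqueness at `w`; `y` non-patch, `w` patch of `θ'`: `θ' y = 1` and `y` is non-patch
so `y ∈ Bd θ'`, so `col θ'` = pair of `y`; `y` patch: same `θ`. (c) `isConnected_sphere` and the two open sets `⋃ ball(y, r y)` by colour: the colour is constant `(Φ, c)`. (d) Non-patch `y`: `f y = Φ y + c`.
Patch `y` of `θ`: take `T` from `exists_facet` (`f = T` on the face) and `b ∈ Bd θ` (nonempty). `w := (1 - t) • b + t • y`, `t` small, patch point near `b`; for `k ∈ ker θ` small, `w + k` is a unit vector near `b`: so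
`T k = Φ k` for `k ∈ ker θ`, and `f y = f w + T (y - w) = Φ w + c + Φ (y - w) = Φ y + c`. -/
theorem exists_affine (hrank : (3 : Cardinal) ≤ Module.rank ℝ X) (hX : LocFinPoly X) {f : X → Y}
    (hf : IsSphereIso f) : ∃ (Φ : X →ₗ[ℝ] Y) (c : Y), ∀ y : X, ‖y‖ = 1 → f y = Φ y + c := by
  classical
  have hloc : ∀ x : X, ‖x‖ = 1 → (¬ ∃ θ : X →L[ℝ] ℝ, IsPatch θ x) →
      ∃ (p : (X →ₗ[ℝ] Y) × Y) (ρ : ℝ), 0 < ρ ∧ ∀ w : X, ‖w‖ = 1 → ‖w - x‖ < ρ → f w = p.1 w + p.2 := by
    intro x hx hnp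
    obtain ⟨Φ, ρ, hρ, h⟩ := exists_local hX hf hx hnp
    exact ⟨(Φ, f x - Φ x), ρ, hρ, h⟩
  choose! pair ρ hρpos hρ using hloc
  have huniq : ∀ w : X, ‖w‖ = 1 → (¬ ∃ θ : X →L[ℝ] ℝ, IsPatch θ w) →
      ∀ (p : (X →ₗ[ℝ] Y) × Y) (ρ' : ℝ), 0 < ρ' →
        (∀ u : X, ‖u‖ = 1 → ‖u - w‖ < ρ' → f u = p.1 u + p.2) → p = pair w := by
    intro w hw hnp p ρ' hρ' h
    have hpos : 0 < min ρ' (ρ w) := lt_min hρ' (hρpos w hw hnp)
    have key := local_unique (Φ := p.1 - (pair w).1) (c := p.2 - (pair w).2) hX hw hnp hpos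
      (fun y hy hyl => by
        have h1 := h y hy (lt_of_lt_of_le hyl (min_le_left _ _))
        have h2 := hρ w hw hnp y hy (lt_of_lt_of_le hyl (min_le_right _ _))
        have h3 : p.1 y + p.2 = (pair w).1 y + (pair w).2 := h1.symm.trans h2
        rw [LinearMap.sub_apply]
        have : p.1 y - (pair w).1 y + (p.2 - (pair w).2)
            = (p.1 y + p.2) - ((pair w).1 y + (pair w).2) := by abel
        rw [this, h3, sub_self])
    exact Prod.ext (sub_eq_zero.mp key.1) (sub_eq_zero.mp key.2)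
  have hshift : ∀ y : X, ‖y‖ = 1 → (¬ ∃ θ : X →L[ℝ] ℝ, IsPatch θ y) →
      ∀ w : X, ‖w‖ = 1 → (¬ ∃ θ : X →L[ℝ] ℝ, IsPatch θ w) → ‖w - y‖ < ρ y → pair w = pair y := by
    intro y hy hnpy w hw hnpw hl
    refine (huniq w hw hnpw (pair y) (ρ y - ‖w - y‖) (by linarith) fun u hu hul => ?_).symm
    refine hρ y hy hnpy u hu ?_
    have : ‖u - y‖ ≤ ‖u - w‖ + ‖w - y‖ := by
      have e : u - y = (u - w) + (w - y) := by abel
      rw [e]; exact norm_add_le _ _
    linarith
  have hBdconst : ∀ (θ : X →L[ℝ] ℝ) (z : X), ‖z‖ = 1 → IsPatch θ z →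
      ∀ b ∈ Bd θ, ∀ b' ∈ Bd θ, pair b = pair b' := by
    intro θ z hz hθ
    have hconn := (bd_connected hrank hz hθ).isPreconnected
    have hnpB : ∀ b ∈ Bd θ, ¬ ∃ χ : X →L[ℝ] ℝ, IsPatch χ b := fun b hb => not_patch_of_mem_Bd hθ hb
    refine const_of_local hconn pair ρ (fun b hb => hρpos b hb.1 (hnpB b hb)) ?_
    intro y hy w hw hyw
    exact hshift y hy.1 (hnpB y hy) w hw.1 (hnpB w hw) hyw
  have hbpex : ∀ θ : X →L[ℝ] ℝ, (∃ z : X, ‖z‖ = 1 ∧ IsPatch θ z) → ∃ b, b ∈ Bd θ := by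
    rintro θ ⟨z, hz, hθ⟩
    exact (bd_connected hrank hz hθ).nonempty
  choose! bp hbp using hbpex
  let col : X → (X →ₗ[ℝ] Y) × Y := fun y =>
    if h : ∃ θ : X →L[ℝ] ℝ, IsPatch θ y then pair (bp h.choose) else pair y
  have hcolP : ∀ (y : X) (θ : X →L[ℝ] ℝ), IsPatch θ y → col y = pair (bp θ) := by
    intro y θ hθ
    have hex : ∃ θ' : X →L[ℝ] ℝ, IsPatch θ' y := ⟨θ, hθ⟩
    have h1 : col y = pair (bp hex.choose) := dif_pos hex
    have h2 : hex.choose = θ := hθ.unique hex.choose_spec.le_norm hex.choose_spec.apply_eq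
    rw [h1, h2]
  have hcolN : ∀ y : X, (¬ ∃ θ : X →L[ℝ] ℝ, IsPatch θ y) → col y = pair y := fun y hy => dif_neg hy
  have hradius : ∀ y ∈ Metric.sphere (0 : X) 1, ∃ r : ℝ, 0 < r ∧
      ∀ w ∈ Metric.sphere (0 : X) 1, ‖w - y‖ < r → col w = col y := by
    intro y hymem
    have hy : ‖y‖ = 1 := by simpa using hymem
    by_cases hp : ∃ θ : X →L[ℝ] ℝ, IsPatch θ y
    · obtain ⟨θ, hθ⟩ := hp
      obtain ⟨R, hR, hwR⟩ := id hθ
      refine ⟨R, hR, fun w _ hl => ?_⟩
      have hθw : IsPatch θ w := by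
        refine ⟨R - ‖w - y‖, by linarith, fun u hul => hwR u ?_⟩
        have : ‖u - y‖ ≤ ‖u - w‖ + ‖w - y‖ := by
          have e : u - y = (u - w) + (w - y) := by abel
          rw [e]; exact norm_add_le _ _
        linarith
      rw [hcolP w θ hθw, hcolP y θ hθ]
    · obtain ⟨ρ2, hρ2, hp2⟩ := exists_radius_patch hX hy
      refine ⟨min (ρ y) ρ2, lt_min (hρpos y hy hp) hρ2, fun w hwmem hl => ?_⟩
      have hw : ‖w‖ = 1 := by simpa using hwmem
      by_cases hpw : ∃ θ : X →L[ℝ] ℝ, IsPatch θ w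
      · obtain ⟨θ, hθ⟩ := hpw
        have h1 : θ y = 1 := hp2 w θ (lt_of_lt_of_le hl (min_le_right _ _)) hθ
        have hyB : y ∈ Bd θ := ⟨hy, h1, fun hh => hp ⟨θ, hh⟩⟩
        rw [hcolP w θ hθ, hcolN y hp]
        exact hBdconst θ w hw hθ _ (hbp θ ⟨w, hw, hθ⟩) y hyB
      · rw [hcolN w hpw, hcolN y hp]
        exact hshift y hy hp w hw hpw (lt_of_lt_of_le hl (min_le_left _ _))
  choose! r hrpos hr using hradius
  have hsph : IsConnected (Metric.sphere (0 : X) 1) :=
    isConnected_sphere (one_lt_rank hrank) 0 zero_le_one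
  obtain ⟨e, he⟩ := hsph.nonempty
  have hconst : ∀ y : X, ‖y‖ = 1 → col y = col e := by
    intro y hy
    exact const_of_local hsph.isPreconnected col r hrpos hr y (by simpa using hy) e he
  refine ⟨(col e).1, (col e).2, fun y hy => ?_⟩
  by_cases hp : ∃ θ : X →L[ℝ] ℝ, IsPatch θ y
  · obtain ⟨θ, hθ⟩ := hp
    -- the boundary point of the facet
    have hbB : bp θ ∈ Bd θ := hbp θ ⟨y, hy, hθ⟩
    set b := bp θ with hbdef
    have hnpb : ¬ ∃ χ : X →L[ℝ] ℝ, IsPatch χ b := not_patch_of_mem_Bd hθ hbB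
    have hpairb : pair b = col e := by
      rw [← hconst y hy, hcolP y θ hθ]
    set Φ := (col e).1 with hΦ
    set c := (col e).2 with hc
    have hloc : ∀ u : X, ‖u‖ = 1 → ‖u - b‖ < ρ b → f u = Φ u + c := by
      intro u hu hul
      have := hρ b hbB.1 hnpb u hu hul
      rwa [hpairb] at this
    obtain ⟨ψ, T, -, -, hT, -, -, -⟩ := exists_facet hf hy hθ
    have hle := hθ.le_norm
    have hθy : θ y = 1 := by rw [hθ.apply_eq, hy]
    have hb1 : ‖b‖ = 1 := hbB.1
    have hθb : θ b = 1 := hbB.2.1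
    have hρb : 0 < ρ b := hρpos b hb1 hnpb
    set t : ℝ := min (1 / 2) (ρ b / 8) with ht
    have ht0 : 0 < t := lt_min (by norm_num) (by positivity)
    have ht1 : t ≤ 1 / 2 := min_le_left _ _
    have ht2 : t ≤ ρ b / 8 := min_le_right _ _
    set w : X := (1 - t) • b + t • y with hw
    obtain ⟨hw1, hθw⟩ := unit_of_combo hle hb1 hy hθb hθy ht0.le (by linarith)
    have hpw : IsPatch θ w := by
      have := hθ.combo (x := b) (s := t) (t := 1 - t) (by rw [hθb, hb1]) ht0 (by linarith)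
      rwa [add_comm] at this
    have hwb : ‖w - b‖ ≤ ρ b / 4 := by
      have e1 : w - b = t • (y - b) := by
        rw [hw, smul_sub, sub_smul, one_smul]
        abel
      have e2 : ‖y - b‖ ≤ 2 := by
        calc ‖y - b‖ ≤ ‖y‖ + ‖b‖ := norm_sub_le _ _
          _ = 2 := by rw [hy, hb1]; norm_num
      rw [e1, norm_smul, Real.norm_of_nonneg ht0.le]
      nlinarith
    have hTw : T w = Φ w + c := by
      rw [← hT w hw1 hθw]
      exact hloc w hw1 (by linarith)
    obtain ⟨r', hr', hker⟩ := hpw.exists_ker hw1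
    set m : ℝ := min r' (ρ b / 2) with hm
    have hm0 : 0 < m := lt_min hr' (by positivity)
    have hsmall : ∀ k : X, θ k = 0 → ‖k‖ < m → T k = Φ k := by
      intro k hk hkl
      obtain ⟨hu1, hθu⟩ := hker k hk (lt_of_lt_of_le hkl (min_le_left _ _))
      have hub : ‖(w + k) - b‖ < ρ b := by
        have e : (w + k) - b = (w - b) + k := by abel
        rw [e]
        have h1 := norm_add_le (w - b) k
        have h2 : ‖k‖ < ρ b / 2 := lt_of_lt_of_le hkl (min_le_right _ _)
        linarith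
      have h1 := hloc (w + k) hu1 hub
      have h2 := hT (w + k) hu1 hθu
      rw [h2, map_add T w k, map_add Φ w k, hTw] at h1
      have h3 : Φ w + c + T k = Φ w + c + Φ k := by
        rw [h1]; abel
      exact add_left_cancel h3
    have hall : ∀ k : X, θ k = 0 → T k = Φ k := by
      intro k hk
      by_cases hk0 : k = 0
      · simp [hk0]
      have hkpos : 0 < ‖k‖ := norm_pos_iff.mpr hk0
      set s : ℝ := m / (2 * ‖k‖) with hs
      have hs0 : 0 < s := by positivity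
      have h1 : θ (s • k) = 0 := by rw [map_smul, hk, smul_zero]
      have h2 : ‖s • k‖ < m := by
        rw [norm_smul, Real.norm_of_nonneg hs0.le, hs]
        have : m / (2 * ‖k‖) * ‖k‖ = m / 2 := by field_simp
        rw [this]
        linarith
      have h3 := hsmall (s • k) h1 h2
      rw [map_smul, map_smul] at h3
      exact smul_right_injective _ hs0.ne' h3
    have hdiff : θ (y - w) = 0 := by rw [map_sub, hθy, hθw, sub_self]
    have h1 := hT y hy hθy
    have h2 : T y = T w + T (y - w) := by rw [← map_add]; congr 1; abel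
    have h3 := hall (y - w) hdiff
    rw [h1, h2, hTw, h3, map_sub]
    abel
  · have h1 := hρ y hy hp y hy (by rw [sub_self, norm_zero]; exact hρpos y hy hp)
    have h2 : pair y = col e := by rw [← hconst y hy, hcolN y hp]
    rwa [h2] at h1

/-- Extension for the ambient form. Paper proof: by `odd_of_isSphereIso` `Φ y + c = - (Φ (-y) + c)... `, so `c = 0`;
`Φ` preserves norms on the sphere, hence everywhere; surjective by `hf.surj` and scaling. -/
theorem extends_of_isSphereIso (hrank : (3 : Cardinal) ≤ Module.rank ℝ X) (hX : LocFinPoly X) {f : X → Y}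
    (hf : IsSphereIso f) : ∃ T : X ≃ₗᵢ[ℝ] Y, ∀ x : X, ‖x‖ = 1 → T x = f x := by
  obtain ⟨Φ, c, h⟩ := exists_affine hrank hX hf
  obtain ⟨e, he⟩ := (isConnected_sphere (one_lt_rank hrank) (0 : X) zero_le_one).nonempty
  have he1 : ‖e‖ = 1 := by simpa using he
  have hc : c = 0 := by
    have h1 := h e he1
    have h2 := h (-e) (by rwa [norm_neg])
    have h3 := odd_of_isSphereIso hf he1
    rw [h2, h1, map_neg] at h3
    have h4 : (2 : ℝ) • c = 0 := by
      rw [two_smul]
      have e1 : c + c = (-Φ e + c) + (Φ e + c) := by abel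
      rw [e1, h3]
      abel
    exact (smul_eq_zero.mp h4).resolve_left two_ne_zero
  have hf' : ∀ y : X, ‖y‖ = 1 → f y = Φ y := by
    intro y hy
    rw [h y hy, hc, add_zero]
  have hnorm : ∀ v : X, ‖Φ v‖ = ‖v‖ := by
    intro v
    by_cases hv : v = 0
    · simp [hv]
    have hvne : ‖v‖ ≠ 0 := norm_ne_zero_iff.mpr hv
    have ha1 : ‖‖v‖⁻¹ • v‖ = 1 := by
      rw [norm_smul, norm_inv, norm_norm, inv_mul_cancel₀ hvne]
    have h1 : ‖Φ (‖v‖⁻¹ • v)‖ = 1 := by
      rw [← hf' _ ha1]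
      exact hf.norm_eq _ ha1
    have e1 : v = ‖v‖ • (‖v‖⁻¹ • v) := by
      rw [smul_smul, mul_inv_cancel₀ hvne, one_smul]
    calc ‖Φ v‖ = ‖Φ (‖v‖ • (‖v‖⁻¹ • v))‖ := by rw [← e1]
      _ = ‖v‖ := by
        rw [map_smul, norm_smul, norm_norm, h1, mul_one]
  have hsurj : Function.Surjective Φ := by
    intro z
    by_cases hz : z = 0
    · exact ⟨0, by simp [hz]⟩
    have hzne : ‖z‖ ≠ 0 := norm_ne_zero_iff.mpr hz
    have ha1 : ‖‖z‖⁻¹ • z‖ = 1 := by
      rw [norm_smul, norm_inv, norm_norm, inv_mul_cancel₀ hzne]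
    obtain ⟨x, hx, hfx⟩ := hf.surj _ ha1
    refine ⟨‖z‖ • x, ?_⟩
    rw [map_smul, ← hf' x hx, hfx, smul_smul, mul_inv_cancel₀ hzne, one_smul]
  let L : X →ₗᵢ[ℝ] Y := ⟨Φ, hnorm⟩
  refine ⟨LinearIsometryEquiv.ofSurjective L hsurj, fun x hx => ?_⟩
  show Φ x = f x
  exact (hf' x hx).symm

/-- Extension, locally finitely polyhedral source. -/
theorem extends_source (hrank : (3 : Cardinal) ≤ Module.rank ℝ X) (hX : LocFinPoly X)
    (f : sphere (0 : X) 1 → sphere (0 : Y) 1) (hf : Isometry f) (hs : Function.Surjective f) :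
    ∃ T : X ≃ₗᵢ[ℝ] Y, ∀ x : sphere (0 : X) 1, T x = f x := by
  obtain ⟨g, hg, hgf⟩ := exists_ambient f hf hs
  obtain ⟨T, hT⟩ := extends_of_isSphereIso hrank hX hg
  refine ⟨T, fun x => ?_⟩
  rw [hT x (by simpa using x.2), hgf]

/-- Extension, locally finitely polyhedral target. -/
theorem extends_target (hrank : (3 : Cardinal) ≤ Module.rank ℝ X) (hY : LocFinPoly Y)
    (f : sphere (0 : X) 1 → sphere (0 : Y) 1) (hf : Isometry f) (hs : Function.Surjective f) :
    ∃ T : X ≃ₗᵢ[ℝ] Y, ∀ x : sphere (0 : X) 1, T x = f x := by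
  by_cases hX : FiniteDimensional ℝ X
  · exact (main hrank f hf hs).1 (Or.inl hX)
  obtain ⟨g, hg, hgf⟩ := exists_ambient f hf hs
  have hY' := not_finiteDimensional_target hg hX
  obtain ⟨h, hh, hhs, htr⟩ := exists_inverse f hf hs
  exact htr (extends_source
    (le_trans (by exact_mod_cast (by norm_num : (3 : ℕ) ≤ 4)) (four_le_rank_of_infinite hY'))
    hY h hh hhs)

end Vale.Agent.Lib.P084.LFP
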